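import Vale.Agent.P328.C.Defs

/-!
# P328, counting, module COND (helper14): tables with a large entry
-/

namespace Vale.P328C.COND
open Finset BigOperators Vale.P328U Vale.P328B Vale.P328C

variable {m n : ℕ}

lemma mem_Tables {r : Fin m → ℕ} {c : Fin n → ℕ} {X : Fin m → Fin n → ℕ} :
    X ∈ Tables r c ↔ (∀ i, ∑ j, X i j = r i) ∧ ∀ j, ∑ i, X i j = c j := by
  unfold Tables
  rw [mem_filter]
  constructor
  · exact fun h => h.2
  · intro h
    refine ⟨?_, h⟩
    rw [Fintype.mem_piFinset]
    intro i
    rw [Fintype.mem_piFinset]
    intro j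
    rw [mem_range]
    have h1 := h.1 i
    have h2 : X i j ≤ ∑ j, X i j :=
      Finset.single_le_sum (f := fun j => X i j) (fun _ _ => Nat.zero_le _) (mem_univ j)
    omega

/-- the table with `v` in the cell `(a, b)` -/
def put (X : Fin m → Fin n → ℕ) (a : Fin m) (b : Fin n) (v : ℕ) : Fin m → Fin n → ℕ :=
  Function.update X a (Function.update (X a) b v)

lemma put_apply (X : Fin m → Fin n → ℕ) (a : Fin m) (b : Fin n) (v : ℕ) (i : Fin m) (j : Fin n) :
    put X a b v i j = if i = a ∧ j = b then v else X i j := by
  unfold put
  by_cases hi : i = a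
  · subst hi
    by_cases hj : j = b
    · subst hj
      simp
    · simp [hj]
  · simp [hi]

lemma row_put (X : Fin m → Fin n → ℕ) (a : Fin m) (b : Fin n) (v : ℕ) (i : Fin m) :
    ∑ j, put X a b v i j + (if i = a then X a b else 0) =
      ∑ j, X i j + if i = a then v else 0 := by
  by_cases hi : i = a
  · subst hi
    rw [if_pos rfl, if_pos rfl]
    rw [← Finset.add_sum_erase univ (fun j => put X i b v i j) (mem_univ b),
      ← Finset.add_sum_erase univ (fun j => X i j) (mem_univ b)]
    have : ∑ j ∈ univ.erase b, put X i b v i j = ∑ j ∈ univ.erase b, X i j := by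
      apply Finset.sum_congr rfl
      intro j hj
      rw [put_apply, if_neg (fun h => (ne_of_mem_erase hj) h.2)]
    rw [this, put_apply, if_pos ⟨rfl, rfl⟩]
    omega
  · rw [if_neg hi, if_neg hi]
    congr 1
    apply Finset.sum_congr rfl
    intro j _
    rw [put_apply, if_neg (fun h => hi h.1)]

lemma col_put (X : Fin m → Fin n → ℕ) (a : Fin m) (b : Fin n) (v : ℕ) (j : Fin n) :
    ∑ i, put X a b v i j + (if j = b then X a b else 0) =
      ∑ i, X i j + if j = b then v else 0 := by
  by_cases hj : j = b
  · subst hj
    rw [if_pos rfl, if_pos rfl]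
    rw [← Finset.add_sum_erase univ (fun i => put X a j v i j) (mem_univ a),
      ← Finset.add_sum_erase univ (fun i => X i j) (mem_univ a)]
    have : ∑ i ∈ univ.erase a, put X a j v i j = ∑ i ∈ univ.erase a, X i j := by
      apply Finset.sum_congr rfl
      intro i hi
      rw [put_apply, if_neg (fun h => (ne_of_mem_erase hi) h.1)]
    rw [this, put_apply, if_pos ⟨rfl, rfl⟩]
    omega
  · rw [if_neg hj, if_neg hj]
    congr 1
    apply Finset.sum_congr rfl
    intro i _
    rw [put_apply, if_neg (fun h => hj h.2)]

lemma dec_apply {k : ℕ} (r : Fin k → ℕ) (t : ℕ) (a i : Fin k) :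
    dec r t a i = if i = a then r a - t else r i := by
  unfold dec
  by_cases hi : i = a
  · subst hi
    simp
  · simp [hi]

theorem thm : StmtCOND := by
  intro m n t r c a b hr hc
  apply Finset.card_nbij' (fun X => put X a b (X a b - t)) (fun X => put X a b (X a b + t))
  · intro X hX
    rw [mem_coe, mem_filter, mem_Tables] at hX
    obtain ⟨⟨h1, h2⟩, h3⟩ := hX
    rw [mem_coe, mem_Tables]
    refine ⟨?_, ?_⟩
    · intro i
      have h4 := row_put X a b (X a b - t) i
      have h5 := h1 i
      rw [dec_apply]
      split_ifs at h4 ⊢ with hi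
      · subst hi
        change ∑ j, put X i b (X i b - t) i j = r i - t
        omega
      · change ∑ j, put X a b (X a b - t) i j = r i
        omega
    · intro j
      have h4 := col_put X a b (X a b - t) j
      have h5 := h2 j
      rw [dec_apply]
      split_ifs at h4 ⊢ with hj
      · subst hj
        change ∑ i, put X a j (X a j - t) i j = c j - t
        omega
      · change ∑ i, put X a b (X a b - t) i j = c j
        omega
  · intro X hX
    rw [mem_coe, mem_Tables] at hX
    obtain ⟨h1, h2⟩ := hX
    rw [mem_coe, mem_filter, mem_Tables]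
    refine ⟨⟨?_, ?_⟩, ?_⟩
    · intro i
      have h4 := row_put X a b (X a b + t) i
      have h5 := h1 i
      rw [dec_apply] at h5
      split_ifs at h4 h5 with hi
      · subst hi
        change ∑ j, put X i b (X i b + t) i j = r i
        omega
      · change ∑ j, put X a b (X a b + t) i j = r i
        omega
    · intro j
      have h4 := col_put X a b (X a b + t) j
      have h5 := h2 j
      rw [dec_apply] at h5
      split_ifs at h4 h5 with hj
      · subst hj
        change ∑ i, put X a j (X a j + t) i j = c j
        omega
      · change ∑ i, put X a b (X a b + t) i j = c j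
        omega
    · change t ≤ put X a b (X a b + t) a b
      rw [put_apply, if_pos ⟨rfl, rfl⟩]
      omega
  · intro X hX
    rw [mem_coe, mem_filter] at hX
    have h3 := hX.2
    funext i j
    change put (put X a b (X a b - t)) a b (put X a b (X a b - t) a b + t) i j = X i j
    rw [put_apply, put_apply, put_apply]
    split_ifs with h h'
    · obtain ⟨rfl, rfl⟩ := h
      omega
    · exact absurd ⟨rfl, rfl⟩ h'
    · rfl
  · intro X hX
    funext i j
    change put (put X a b (X a b + t)) a b (put X a b (X a b + t) a b - t) i j = X i j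
    rw [put_apply, put_apply, put_apply]
    split_ifs with h h'
    · obtain ⟨rfl, rfl⟩ := h
      omega
    · exact absurd ⟨rfl, rfl⟩ h'
    · rfl

end Vale.P328C.COND
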