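import Vale.Agent.P328.B.EndDefs
import Vale.Agent.P328.Bin.NW

/-!
# P328: approximate counting (FPRAS) from the almost uniform sampler (helper25)

Stage: margins `r`, `c` of total `N > 0`; `M` samples; `t = ⌈N/(mn)⌉`; every table has an entry
`≥ t`, so some cell `(a,b)` has `X a b ≥ t` in at least a fraction `1/(mn)` of the samples; the
fraction estimates `|Ω(r - t e_a, c - t e_b)| / |Ω(r, c)|`.  Go on with `r - t e_a`, `c - t e_b`.
-/

namespace Vale.P328C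
open Finset BigOperators Vale.P328U Vale.P328B

/-- one random choice of the dyadic chain -/
abbrev Ch (m n D : ℕ) : Type := Fin m × Fin n × Fin n × Fin (D + 1) × Bool

/-- the seed of one sample: `K` attempts of `T` steps -/
abbrev Sd (m n D K T : ℕ) : Type := Fin K × Fin T → Ch m n D

/-- the threshold `⌈N / (m n)⌉` -/
def thr (m n N : ℕ) : ℕ := (N + m * n - 1) / (m * n)

/-- number of samples with entry `(i, j)` at least `t` -/
def cnt {m n M : ℕ} (t : ℕ) (X : Fin M → Fin m → Fin n → ℕ) (i : Fin m) (j : Fin n) : ℕ :=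
  (univ.filter fun s => t ≤ X s i j).card

/-- remove `t` from entry `a` -/
def dec {m : ℕ} (r : Fin m → ℕ) (t : ℕ) (a : Fin m) : Fin m → ℕ := Function.update r a (r a - t)

/-- the samples of one stage -/
def smp {m n D K T M : ℕ} (hub : (Fin m → ℕ) → Fin m) (J : Fin n) (r : Fin m → ℕ) (c : Fin n → ℕ)
    (ω : Fin M → Sd m n D K T) : Fin M → Fin m → Fin n → ℕ :=
  fun s => dySampler (hub r) J (NW.nw r c) (fun a b => ω s (a, b))

/-- the estimator with `I` stages of `M` samples; `hub r` is a row of largest sum, `pick F` is a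
cell where `F` is largest -/
noncomputable def est {m n D K T M : ℕ} (hub : (Fin m → ℕ) → Fin m)
    (pick : (Fin m → Fin n → ℕ) → Fin m × Fin n) (J : Fin n) :
    (I : ℕ) → (Fin m → ℕ) → (Fin n → ℕ) → (Fin I → Fin M → Sd m n D K T) → ℝ
  | 0, _, _, _ => 1
  | I + 1, r, c, ω =>
    if ∑ i, r i = 0 then 1 else
      (M : ℝ) / (cnt (thr m n (∑ i, r i)) (smp hub J r c (ω 0))
        (pick (cnt (thr m n (∑ i, r i)) (smp hub J r c (ω 0)))).1
        (pick (cnt (thr m n (∑ i, r i)) (smp hub J r c (ω 0)))).2 : ℝ) *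
      est hub pick J I
        (dec r (thr m n (∑ i, r i)) (pick (cnt (thr m n (∑ i, r i)) (smp hub J r c (ω 0)))).1)
        (dec c (thr m n (∑ i, r i)) (pick (cnt (thr m n (∑ i, r i)) (smp hub J r c (ω 0)))).2)
        (fun s => ω s.succ)

/-- HOEF : Hoeffding inequality, counting form. (`e^y ≤ 1 + y + y²` for `y ≤ 1`, `λ = 2ξ`.) -/
def StmtHOEF : Prop :=
  ∀ (S : Type) [Fintype S] [Nonempty S] (A : S → Prop) [DecidablePred A] (M : ℕ) (ξ : ℝ),
    1 ≤ M → 0 < ξ → ξ ≤ 1 / 2 →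
    ((univ.filter fun ω : Fin M → S =>
      ξ ≤ |((univ.filter fun s => A (ω s)).card : ℝ) / M -
        ((univ.filter fun u => A u).card : ℝ) / (Fintype.card S : ℝ)|).card : ℝ) ≤
      2 * Real.exp (- (M * ξ ^ 2)) * (Fintype.card (Fin M → S) : ℝ)

/-- COND : tables with a large entry. -/
def StmtCOND : Prop :=
  ∀ (m n t : ℕ) (r : Fin m → ℕ) (c : Fin n → ℕ) (a : Fin m) (b : Fin n), t ≤ r a → t ≤ c b →
    ((Tables r c).filter fun X => t ≤ X a b).card = (Tables (dec r t a) (dec c t b)).card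

/-- PIG : pigeonhole: every table has an entry at least `t`, so some cell is hit by a fraction
`1/(mn)` of the samples; and `t ≤ N`, `N - t ≤ N (mn-1)/(mn)`. -/
def StmtPIG : Prop :=
  ∀ (m n M : ℕ) (r : Fin m → ℕ) (c : Fin n → ℕ) (X : Fin M → Fin m → Fin n → ℕ)
    (q : Fin m × Fin n), 1 ≤ m → 1 ≤ n → 1 ≤ ∑ i, r i → (∀ s, X s ∈ Tables r c) →
    (∀ i j, cnt (thr m n (∑ i, r i)) X i j ≤ cnt (thr m n (∑ i, r i)) X q.1 q.2) → 1 ≤ M →
    M ≤ m * n * cnt (thr m n (∑ i, r i)) X q.1 q.2 ∧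
    thr m n (∑ i, r i) ≤ r q.1 ∧ thr m n (∑ i, r i) ≤ c q.2 ∧
    m * n * (∑ i, dec r (thr m n (∑ i, r i)) q.1 i) ≤ (m * n - 1) * ∑ i, r i ∧
    ∑ i, dec r (thr m n (∑ i, r i)) q.1 i + thr m n (∑ i, r i) = ∑ i, r i ∧
    ∑ j, dec c (thr m n (∑ i, r i)) q.2 j + thr m n (∑ i, r i) = ∑ j, c j

/-- the sampler is `η`-accurate for all margins of total at most `N₀` -/
def Good (m n D K T N₀ : ℕ) (hub : (Fin m → ℕ) → Fin m) (J : Fin n) (η : ℝ) : Prop :=
  ∀ (r : Fin m → ℕ) (c : Fin n → ℕ), ∑ i, r i = ∑ j, c j → ∑ i, r i ≤ N₀ →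
    (∀ ω : Sd m n D K T, dySampler (hub r) J (NW.nw r c) (fun a b => ω (a, b)) ∈ Tables r c) ∧
    (1 / 2) * ∑ X ∈ Tables r c, |lawOf (fun ω : Sd m n D K T =>
      dySampler (hub r) J (NW.nw r c) (fun a b => ω (a, b))) X - 1 / ((Tables r c).card : ℝ)| ≤ η

/-- STG : one stage. Bad seeds: some cell frequency deviates by `≥ ξ` from its mean; union bound over
the `mn` cells (HOEF), the mean of a cell is within `η` of `|{X ∈ Ω : t ≤ X i j}| / |Ω|` (total
variation). For a good seed: with `q` the picked cell, `F = cnt`, the quotient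
`|Ω'| M / (|Ω| F q)` is in `[1 - mn(ξ+η), 1 + mn(ξ+η)]` (COND, PIG). -/
def StmtSTG : Prop :=
  ∀ (m n D K T M N₀ : ℕ) (hub : (Fin m → ℕ) → Fin m)
    (pick : (Fin m → Fin n → ℕ) → Fin m × Fin n) (J : Fin n) (η ξ : ℝ) (r : Fin m → ℕ)
    (c : Fin n → ℕ), 1 ≤ m → 1 ≤ M → 0 < ξ → ξ ≤ 1 / 2 → Good m n D K T N₀ hub J η →
    (∀ (F : Fin m → Fin n → ℕ) (i : Fin m) (j : Fin n), F i j ≤ F (pick F).1 (pick F).2) →
    ∑ i, r i = ∑ j, c j → ∑ i, r i ≤ N₀ → 1 ≤ ∑ i, r i →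
    ((univ.filter fun ω : Fin M → Sd m n D K T =>
      ¬ (let F := cnt (thr m n (∑ i, r i)) (smp hub J r c ω)
         let Ω' := Tables (dec r (thr m n (∑ i, r i)) (pick F).1)
            (dec c (thr m n (∑ i, r i)) (pick F).2)
         1 - m * n * (ξ + η) ≤
            ((Ω'.card : ℝ) * M) / ((Tables r c).card * F (pick F).1 (pick F).2) ∧
         ((Ω'.card : ℝ) * M) / ((Tables r c).card * F (pick F).1 (pick F).2) ≤
            1 + m * n * (ξ + η))).card : ℝ) ≤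
      m * n * (2 * Real.exp (- (M * ξ ^ 2))) * (Fintype.card (Fin M → Sd m n D K T) : ℝ)

/-- IND : all stages (induction on `I`; STG, PIG; if the total is `0` there is exactly one table).
`x = mn(ξ+η) ≤ 1`. -/
def StmtIND : Prop :=
  ∀ (m n D K T M N₀ : ℕ) (hub : (Fin m → ℕ) → Fin m)
    (pick : (Fin m → Fin n → ℕ) → Fin m × Fin n) (J : Fin n) (η ξ : ℝ), 1 ≤ m → 1 ≤ M → 0 < ξ →
    ξ ≤ 1 / 2 → 0 ≤ η → (m : ℝ) * n * (ξ + η) ≤ 1 → Good m n D K T N₀ hub J η →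
    (∀ (F : Fin m → Fin n → ℕ) (i : Fin m) (j : Fin n), F i j ≤ F (pick F).1 (pick F).2) →
    ∀ (I : ℕ) (r : Fin m → ℕ) (c : Fin n → ℕ), ∑ i, r i = ∑ j, c j → ∑ i, r i ≤ N₀ →
    (∑ i, r i) * (m * n - 1) ^ I < (m * n) ^ I →
    ((univ.filter fun ω : Fin I → Fin M → Sd m n D K T =>
      ¬ ((1 - m * n * (ξ + η)) ^ I * ((Tables r c).card : ℝ) ≤ est hub pick J I r c ω ∧
        est hub pick J I r c ω ≤ (1 + m * n * (ξ + η)) ^ I * ((Tables r c).card : ℝ))).card : ℝ) ≤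
      I * (m * n * (2 * Real.exp (- (M * ξ ^ 2)))) *
        (Fintype.card (Fin I → Fin M → Sd m n D K T) : ℝ)

/-- FPR : the approximation scheme, with explicit real bounds on the parameters (from IND,
FULL.full, STARB.run_spec / GEN.gsam_mem as in Results/P328/BinarySampler.lean). -/
def StmtFPR : Prop :=
  ∀ (m n N D K T M I : ℕ) (hub : (Fin m → ℕ) → Fin m)
    (pick : (Fin m → Fin n → ℕ) → Fin m × Fin n) (J : Fin n) (ε δ : ℝ) (r : Fin m → ℕ)
    (c : Fin n → ℕ), 1 ≤ m → (∀ (r : Fin m → ℕ) (k : Fin m), r k ≤ r (hub r)) →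
    (∀ (F : Fin m → Fin n → ℕ) (i : Fin m) (j : Fin n), F i j ≤ F (pick F).1 (pick F).2) → ∑ i, r i = N → ∑ j, c j = N →
    0 < ε → ε < 1 → 0 < δ → δ < 1 → N < 2 ^ (D + 1) → m * n * (D + 1) ≤ I →
    16 * ((m : ℝ) * n) ^ 2 * (I : ℝ) ^ 2 / ε ^ 2 * Real.log (2 * m * n * I / δ) ≤ M →
    2 * m * n * Real.log (4 / (ε / (4 * m * n * I))) ≤ K →
    (16000 * (m : ℝ) ^ 4 * (n : ℝ) ^ 11 * ((D : ℝ) + 1) ^ 2 * (1 + Real.log ((N : ℝ) + 2))) *
      (m * n * Real.log (N + 2) + Real.log (8 * m * n / (ε / (4 * m * n * I)))) ≤ T →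
    (1 - δ) * (Fintype.card (Fin I → Fin M → Sd m n D K T) : ℝ) ≤
      ((univ.filter fun ω : Fin I → Fin M → Sd m n D K T =>
        (1 - ε) * ((Tables r c).card : ℝ) ≤ est hub pick J I r c ω ∧
        est hub pick J I r c ω ≤ (1 + ε) * ((Tables r c).card : ℝ)).card : ℝ)

end Vale.P328C
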