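import Vale.Agent.P328.C.Defs
import Vale.Agent.P328.B.FULL
import Vale.Agent.P328.U.GEN

/-! # P328, approximate counting: the scheme from the induction over the stages (helper8) -/

namespace Vale.P328C.FPR
open Finset BigOperators Vale.P328U Vale.P328B Vale.P328C

theorem lawOf_equiv {m n : ℕ} {S S' : Type} [Fintype S] [Fintype S'] (e : S ≃ S')
    (out : S' → Fin m → Fin n → ℕ) (X : Fin m → Fin n → ℕ) :
    lawOf (fun s => out (e s)) X = lawOf out X := by
  classical
  unfold lawOf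
  have h1 : (univ.filter fun s : S => out (e s) = X).card =
      (univ.filter fun s : S' => out s = X).card := by
    refine card_bij (fun s _ => e s) ?_ ?_ ?_
    · intro s hs
      rw [mem_filter] at hs ⊢
      exact ⟨mem_univ _, hs.2⟩
    · intro s _ s' _ h
      exact e.injective h
    · intro s hs
      rw [mem_filter] at hs
      refine ⟨e.symm s, ?_, e.apply_symm_apply s⟩
      rw [mem_filter, e.apply_symm_apply]
      exact ⟨mem_univ _, hs.2⟩
  have h2 : Fintype.card S = Fintype.card S' := Fintype.card_congr e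
  have h3 : ((univ.filter fun s : S => out (e s) = X).card : ℝ) =
      ((univ.filter fun s : S' => out s = X).card : ℝ) := by rw [h1]
  have h4 : (Fintype.card S : ℝ) = (Fintype.card S' : ℝ) := by rw [h2]
  refine congrArg₂ (· / ·) ?_ h4
  refine Eq.trans ?_ (h3.trans ?_)
  · exact congrArg (fun s : Finset S => (s.card : ℝ)) (by ext; simp)
  · exact congrArg (fun s : Finset S' => (s.card : ℝ)) (by ext; simp)

/-- the number of stages is large enough -/
theorem stages (p N D I : ℕ) (hp : 1 ≤ p) (hN : N < 2 ^ (D + 1)) (hI : p * (D + 1) ≤ I) :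
    N * (p - 1) ^ I < p ^ I := by
  have hpR : (1 : ℝ) ≤ p := by exact_mod_cast hp
  have hp0 : (0 : ℝ) < p := by linarith
  have h1 : ((p - 1 : ℕ) : ℝ) = p - 1 := by
    rw [Nat.cast_sub hp, Nat.cast_one]
  have h2 : ((p : ℝ) - 1) ≤ p * Real.exp (-(1 / p)) := by
    have h3 := Real.add_one_le_exp (-(1 / (p : ℝ)))
    have h4 : (p : ℝ) * (-(1 / p) + 1) = p - 1 := by
      field_simp
      ring
    calc (p : ℝ) - 1 = p * (-(1 / p) + 1) := h4.symm
      _ ≤ _ := mul_le_mul_of_nonneg_left h3 hp0.le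
  have h3 : ((p : ℝ) - 1) ^ I ≤ (p : ℝ) ^ I * Real.exp (-((D : ℝ) + 1)) := by
    have h4 : ((p : ℝ) - 1) ^ I ≤ (p * Real.exp (-(1 / p))) ^ I :=
      pow_le_pow_left₀ (by linarith) h2 I
    refine h4.trans ?_
    rw [mul_pow, ← Real.exp_nat_mul]
    refine mul_le_mul_of_nonneg_left ?_ (by positivity)
    apply Real.exp_le_exp.2
    have h5 : ((D : ℝ) + 1) ≤ (I : ℝ) / p := by
      rw [le_div_iff₀ hp0]
      have : ((p * (D + 1) : ℕ) : ℝ) ≤ (I : ℝ) := by exact_mod_cast hI
      push_cast at this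
      linarith
    have h6 : (I : ℝ) * (-(1 / p)) = -((I : ℝ) / p) := by ring
    rw [h6]
    linarith
  have h4 : (N : ℝ) * Real.exp (-((D : ℝ) + 1)) < 1 := by
    have h5 : (N : ℝ) < 2 ^ (D + 1) := by exact_mod_cast hN
    have h6 : (2 : ℝ) ^ (D + 1) ≤ Real.exp ((D : ℝ) + 1) := by
      have h7 : (2 : ℝ) ≤ Real.exp 1 := by
        have := Real.add_one_le_exp (1 : ℝ)
        linarith
      calc (2 : ℝ) ^ (D + 1) ≤ (Real.exp 1) ^ (D + 1) := pow_le_pow_left₀ (by norm_num) h7 _
        _ = Real.exp ((D : ℝ) + 1) := by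
          rw [← Real.exp_nat_mul]
          congr 1
          push_cast
          ring
    calc (N : ℝ) * Real.exp (-((D : ℝ) + 1))
        < Real.exp ((D : ℝ) + 1) * Real.exp (-((D : ℝ) + 1)) :=
          mul_lt_mul_of_pos_right (lt_of_lt_of_le h5 h6) (Real.exp_pos _)
      _ = 1 := by
          rw [← Real.exp_add]
          simp
  have h5 : (N : ℝ) * ((p : ℝ) - 1) ^ I < (p : ℝ) ^ I := by
    calc (N : ℝ) * ((p : ℝ) - 1) ^ I ≤ N * ((p : ℝ) ^ I * Real.exp (-((D : ℝ) + 1))) :=
          mul_le_mul_of_nonneg_left h3 (Nat.cast_nonneg _)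
      _ = (N * Real.exp (-((D : ℝ) + 1))) * (p : ℝ) ^ I := by ring
      _ < 1 * (p : ℝ) ^ I := mul_lt_mul_of_pos_right h4 (by positivity)
      _ = (p : ℝ) ^ I := one_mul _
  have h6 : ((N * (p - 1) ^ I : ℕ) : ℝ) < ((p ^ I : ℕ) : ℝ) := by
    push_cast
    rw [h1]
    exact h5
  exact_mod_cast h6

theorem good (m n N D K T : ℕ) (hub : (Fin m → ℕ) → Fin m) (J : Fin n) (η : ℝ)
    (hhub : ∀ (r : Fin m → ℕ) (k : Fin m), r k ≤ r (hub r)) (h0 : 0 < η) (h1 : η < 1)
    (hD : N < 2 ^ (D + 1)) (hm : 1 ≤ m)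
    (hK : 2 * m * n * Real.log (4 / η) ≤ K)
    (hT : (16000 * (m : ℝ) ^ 4 * (n : ℝ) ^ 11 * ((D : ℝ) + 1) ^ 2 * (1 + Real.log ((N : ℝ) + 2))) *
      (m * n * Real.log (N + 2) + Real.log (8 * m * n / η)) ≤ T) :
    Good m n D K T N hub J η := by
  intro r c hrc hN
  have hn : 1 ≤ n := by have := J.2; omega
  have hX : NW.nw r c ∈ Tables r c := NW.nw_mem r c hrc
  have hX' : NW.nw r c + E (hub r) J ∈ Tables (r + Pi.single (hub r) 1)
      (c + Pi.single J 1) := by
    obtain ⟨hG, -⟩ := ACC.thm m n r c (hub r) J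
    have : NW.nw r c + E (hub r) J ∈ ((Tables (r + Pi.single (hub r) 1)
        (c + Pi.single J 1)).filter fun Y => 1 ≤ Y (hub r) J) := by
      rw [hG]
      exact Finset.mem_map.mpr ⟨NW.nw r c, hX, rfl⟩
    exact (Finset.mem_filter.mp this).1
  constructor
  · intro ω
    refine GEN.gsam_mem r c (hub r) J (fun ω' : Fin T → Ch m n D =>
        dyRun (hub r) (NW.nw r c + E (hub r) J) ω') (NW.nw r c) hX ?_ (fun a b => ω (a, b))
    intro ω'
    exact (STARB.run_spec (hub r) _ ω' hX').1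
  · have hmR : (1 : ℝ) ≤ m := by exact_mod_cast hm
    have hnR : (1 : ℝ) ≤ n := by exact_mod_cast hn
    have hNR : ((∑ i, r i : ℕ) : ℝ) ≤ N := by exact_mod_cast hN
    have hN0 : (0 : ℝ) ≤ ((∑ i, r i : ℕ) : ℝ) := Nat.cast_nonneg _
    have hl : Real.log (((∑ i, r i : ℕ) : ℝ) + 2) ≤ Real.log ((N : ℝ) + 2) :=
      Real.log_le_log (by linarith) (by linarith)
    have hl0 : 0 ≤ Real.log (((∑ i, r i : ℕ) : ℝ) + 2) := Real.log_nonneg (by linarith)
    have hl2 : 0 ≤ Real.log (8 * m * n / η) := by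
      apply Real.log_nonneg
      rw [le_div_iff₀ h0]
      nlinarith [mul_le_mul hmR hnR (by norm_num) (by linarith)]
    have key := FULL.full m n (∑ i, r i) D r c (hub r) J η K T (NW.nw r c) (hhub r) rfl hrc.symm
      hX h0 h1 (lt_of_le_of_lt hN hD) hK (by
        refine le_trans ?_ hT
        have hc0 : 0 ≤ (m : ℝ) * n * Real.log (((∑ i, r i : ℕ) : ℝ) + 2) +
            Real.log (8 * m * n / η) := by positivity
        have hlN : 0 ≤ Real.log ((N : ℝ) + 2) := hl0.trans hl
        refine mul_le_mul ?_ ?_ hc0 (by positivity)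
        · refine mul_le_mul_of_nonneg_left (by linarith) (by positivity)
        · have : (m : ℝ) * n * Real.log (((∑ i, r i : ℕ) : ℝ) + 2) ≤
              m * n * Real.log ((N : ℝ) + 2) := mul_le_mul_of_nonneg_left hl (by positivity)
          linarith)
    refine le_trans (le_of_eq ?_) key
    congr 1
    refine sum_congr rfl fun X _ => ?_
    have e1 := lawOf_equiv (Equiv.curry (Fin K) (Fin T) (Ch m n D))
      (fun ω => dySampler (hub r) J (NW.nw r c) ω) X
    have e2 : lawOf (fun ω : Sd m n D K T =>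
        dySampler (hub r) J (NW.nw r c) (fun a b => ω (a, b))) X =
        lawOf (fun ω : Fin K → Fin T → Ch m n D => dySampler (hub r) J (NW.nw r c) ω) X := e1
    rw [e2]

theorem exp_half (e : ℝ) (h0 : 0 < e) (h1 : e < 1) : Real.exp (e / 2) ≤ 1 + e := by
  have h2 : |e / 2| ≤ 1 := by
    rw [abs_of_pos (by linarith)]
    linarith
  have h3 := Real.abs_exp_sub_one_sub_id_le h2
  have h4 := (abs_le.1 h3).2
  nlinarith

theorem thm (hIND : StmtIND) : StmtFPR := by
  classical
  intro m n N D K T M I hub pick J ε δ r c hm hhub hpick hr hc he0 he1 hd0 hd1 hD hI hM hK hT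
  have hn : 1 ≤ n := by have := J.2; omega
  have hmn : 1 ≤ m * n := Nat.mul_pos hm hn
  have hI1 : 1 ≤ I := le_trans (Nat.mul_pos hmn (Nat.succ_pos D)) hI
  have hmR : (1 : ℝ) ≤ m := by exact_mod_cast hm
  have hnR : (1 : ℝ) ≤ n := by exact_mod_cast hn
  have hIR : (1 : ℝ) ≤ I := by exact_mod_cast hI1
  have hmnR : (1 : ℝ) ≤ (m : ℝ) * n := by nlinarith
  have hmnI : (1 : ℝ) ≤ (m : ℝ) * n * I := by nlinarith
  set η : ℝ := ε / (4 * m * n * I) with hη
  have hden : (0 : ℝ) < 4 * m * n * I := by nlinarith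
  have hη0 : 0 < η := div_pos he0 hden
  have hη1 : η ≤ 1 / 4 := by
    rw [hη, div_le_iff₀ hden]
    nlinarith
  have hgood : Good m n D K T N hub J η :=
    good m n N D K T hub J η hhub hη0 (by linarith) hD hm hK hT
  have hx : (m : ℝ) * n * (η + η) = ε / (2 * I) := by
    rw [hη]
    have : (I : ℝ) ≠ 0 := by linarith
    have : (m : ℝ) ≠ 0 := by linarith
    have : (n : ℝ) ≠ 0 := by linarith
    field_simp
    ring
  have hx1 : (m : ℝ) * n * (η + η) ≤ 1 := by
    rw [hx, div_le_one (by linarith)]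
    linarith
  have hx0 : 0 ≤ (m : ℝ) * n * (η + η) := by positivity
  -- M is positive
  have hlogpos : 0 < Real.log (2 * m * n * I / δ) := by
    apply Real.log_pos
    rw [lt_div_iff₀ hd0]
    nlinarith
  have hMR : (0 : ℝ) < M := lt_of_lt_of_le (by positivity) hM
  have hM1 : 1 ≤ M := by
    have : 0 < M := by exact_mod_cast hMR
    exact this
  have hexp : Real.exp (-(M * η ^ 2)) ≤ δ / (2 * m * n * I) := by
    have h1 : Real.log (2 * m * n * I / δ) ≤ M * η ^ 2 := by
      have h2 : 16 * ((m : ℝ) * n) ^ 2 * (I : ℝ) ^ 2 / ε ^ 2 * η ^ 2 = 1 := by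
        rw [hη]
        have : (I : ℝ) ≠ 0 := by linarith
        have : (m : ℝ) ≠ 0 := by linarith
        have : (n : ℝ) ≠ 0 := by linarith
        have : ε ≠ 0 := by linarith
        field_simp
        norm_num
      calc Real.log (2 * m * n * I / δ)
          = (16 * ((m : ℝ) * n) ^ 2 * (I : ℝ) ^ 2 / ε ^ 2 * η ^ 2) *
            Real.log (2 * m * n * I / δ) := by rw [h2, one_mul]
        _ = (16 * ((m : ℝ) * n) ^ 2 * (I : ℝ) ^ 2 / ε ^ 2 * Real.log (2 * m * n * I / δ)) *
            η ^ 2 := by ring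
        _ ≤ M * η ^ 2 := mul_le_mul_of_nonneg_right hM (sq_nonneg _)
    calc Real.exp (-(M * η ^ 2)) ≤ Real.exp (-Real.log (2 * m * n * I / δ)) :=
          Real.exp_le_exp.2 (by linarith)
      _ = δ / (2 * m * n * I) := by
          rw [Real.exp_neg, Real.exp_log (by positivity), inv_div]
  have key := hIND m n D K T M N hub pick J η η hm hM1 hη0 (by linarith) hη0.le hx1 hgood hpick
    I r c (hr.trans hc.symm) hr.le (by
      rw [hr]
      exact stages (m * n) N D I hmn hD hI)
  set x : ℝ := (m : ℝ) * n * (η + η) with hxdef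
  have hIx : (I : ℝ) * x = ε / 2 := by
    rw [hx]
    have : (I : ℝ) ≠ 0 := by linarith
    field_simp
  have hlow : 1 - ε ≤ (1 - x) ^ I := by
    have h1 := one_add_mul_le_pow (a := -x) (by linarith) I
    have h2 : (1 : ℝ) + I * (-x) = 1 - ε / 2 := by
      rw [mul_neg, hIx]
      ring
    have h3 : (1 + -x) ^ I = (1 - x) ^ I := by ring
    rw [h2, h3] at h1
    linarith
  have hup : (1 + x) ^ I ≤ 1 + ε := by
    have h1 : 1 + x ≤ Real.exp x := by
      have := Real.add_one_le_exp x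
      linarith
    calc (1 + x) ^ I ≤ Real.exp x ^ I := pow_le_pow_left₀ (by linarith) h1 I
      _ = Real.exp (ε / 2) := by rw [← Real.exp_nat_mul, hIx]
      _ ≤ 1 + ε := exp_half ε he0 he1
  have hcard : (0 : ℝ) ≤ ((Tables r c).card : ℝ) := Nat.cast_nonneg _
  set bad := (univ.filter fun ω : Fin I → Fin M → Sd m n D K T =>
      ¬ ((1 - x) ^ I * ((Tables r c).card : ℝ) ≤ est hub pick J I r c ω ∧
        est hub pick J I r c ω ≤ (1 + x) ^ I * ((Tables r c).card : ℝ))) with hbad
  set gd := (univ.filter fun ω : Fin I → Fin M → Sd m n D K T =>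
        (1 - ε) * ((Tables r c).card : ℝ) ≤ est hub pick J I r c ω ∧
        est hub pick J I r c ω ≤ (1 + ε) * ((Tables r c).card : ℝ)) with hgd
  have hsub : (univ : Finset (Fin I → Fin M → Sd m n D K T)) ⊆ bad ∪ gd := by
    intro ω _
    rw [mem_union]
    by_cases h : ω ∈ bad
    · exact Or.inl h
    · right
      rw [hbad, mem_filter, not_and, not_not] at h
      obtain ⟨h1, h2⟩ := h (mem_univ _)
      rw [hgd, mem_filter]
      exact ⟨mem_univ _, (mul_le_mul_of_nonneg_right hlow hcard).trans h1,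
        h2.trans (mul_le_mul_of_nonneg_right hup hcard)⟩
  have hcnt : (Fintype.card (Fin I → Fin M → Sd m n D K T) : ℝ) ≤ bad.card + gd.card := by
    have h1 := (card_le_card hsub).trans (card_union_le bad gd)
    rw [card_univ] at h1
    exact_mod_cast h1
  have hbadle : (bad.card : ℝ) ≤ δ * (Fintype.card (Fin I → Fin M → Sd m n D K T) : ℝ) := by
    refine key.trans (mul_le_mul_of_nonneg_right ?_ (Nat.cast_nonneg _))
    calc (I : ℝ) * (m * n * (2 * Real.exp (-(M * η ^ 2))))
        ≤ I * (m * n * (2 * (δ / (2 * m * n * I)))) := by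
          refine mul_le_mul_of_nonneg_left ?_ (by linarith)
          refine mul_le_mul_of_nonneg_left ?_ (by linarith)
          linarith
      _ = δ := by
          have : (I : ℝ) ≠ 0 := by linarith
          have : (m : ℝ) ≠ 0 := by linarith
          have : (n : ℝ) ≠ 0 := by linarith
          field_simp
  linarith

end Vale.P328C.FPR
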