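import Vale.Agent.P328.C.Defs

/-!
# P328: Hoeffding inequality, counting form
-/

namespace Vale.P328C.HOEF
open Finset BigOperators

theorem mgf (S : Type) [Fintype S] [Nonempty S] (A : S → Prop) [DecidablePred A] (μ : ℝ)
    (hμ : |μ| ≤ 1) :
    ∑ u : S, Real.exp (μ * ((if A u then (1:ℝ) else 0) -
      ((univ.filter fun u => A u).card : ℝ) / (Fintype.card S : ℝ))) ≤
      (Fintype.card S : ℝ) * Real.exp (μ ^ 2 / 4) := by
  set p : ℝ := ((univ.filter fun u => A u).card : ℝ) / (Fintype.card S : ℝ) with hp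
  have hS : (0:ℝ) < Fintype.card S := by exact_mod_cast Fintype.card_pos
  have hp0 : 0 ≤ p := by positivity
  have hp1 : p ≤ 1 := by
    rw [hp, div_le_one hS]; exact_mod_cast Finset.card_le_univ _
  have hsum : ∑ u : S, (if A u then (1:ℝ) else 0) = (Fintype.card S : ℝ) * p := by
    rw [Finset.sum_boole, hp]; field_simp
  have h1 : ∀ u : S, Real.exp (μ * ((if A u then (1:ℝ) else 0) - p)) ≤
      1 + μ * ((if A u then (1:ℝ) else 0) - p) + (μ * ((if A u then (1:ℝ) else 0) - p)) ^ 2 := by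
    intro u
    have hy : |μ * ((if A u then (1:ℝ) else 0) - p)| ≤ 1 := by
      rw [abs_mul]
      have h2 : |(if A u then (1:ℝ) else 0) - p| ≤ 1 := by
        rw [abs_le]; split_ifs <;> constructor <;> linarith
      calc |μ| * |(if A u then (1:ℝ) else 0) - p| ≤ 1 * 1 := by gcongr
        _ = 1 := one_mul 1
    have h3 := Real.abs_exp_sub_one_sub_id_le hy
    linarith [(abs_le.mp h3).2]
  calc ∑ u : S, Real.exp (μ * ((if A u then (1:ℝ) else 0) - p))
      ≤ ∑ u : S, (1 + μ * ((if A u then (1:ℝ) else 0) - p) +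
        (μ * ((if A u then (1:ℝ) else 0) - p)) ^ 2) := Finset.sum_le_sum fun u _ => h1 u
    _ = ∑ u : S, ((1 - μ * p + μ ^ 2 * p ^ 2) +
        (μ + μ ^ 2 * (1 - 2 * p)) * (if A u then (1:ℝ) else 0)) := by
        refine Finset.sum_congr rfl fun u _ => ?_
        split_ifs <;> ring
    _ = (Fintype.card S : ℝ) * (1 + μ ^ 2 * (p * (1 - p))) := by
        rw [Finset.sum_add_distrib, ← Finset.mul_sum, hsum, Finset.sum_const, Finset.card_univ,
          nsmul_eq_mul]
        ring
    _ ≤ (Fintype.card S : ℝ) * Real.exp (μ ^ 2 / 4) := by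
        gcongr
        have h4 : p * (1 - p) ≤ 1 / 4 := by nlinarith [sq_nonneg (p - 1 / 2)]
        calc 1 + μ ^ 2 * (p * (1 - p)) ≤ 1 + μ ^ 2 * (1 / 4) := by gcongr
          _ = μ ^ 2 / 4 + 1 := by ring
          _ ≤ _ := Real.add_one_le_exp _

theorem side (S : Type) [Fintype S] [Nonempty S] (A : S → Prop) [DecidablePred A] (M : ℕ)
    (ξ σ : ℝ) (hM : 1 ≤ M) (hξ : 0 < ξ) (hξ' : ξ ≤ 1 / 2) (hσ : |σ| = 1) :
    ((univ.filter fun ω : Fin M → S =>
      ξ ≤ σ * (((univ.filter fun s => A (ω s)).card : ℝ) / M -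
        ((univ.filter fun u => A u).card : ℝ) / (Fintype.card S : ℝ))).card : ℝ) ≤
      Real.exp (- (M * ξ ^ 2)) * (Fintype.card (Fin M → S) : ℝ) := by
  set p : ℝ := ((univ.filter fun u => A u).card : ℝ) / (Fintype.card S : ℝ) with hp
  have hM0 : (0:ℝ) < M := by exact_mod_cast hM
  have hσ2 : σ ^ 2 = 1 := by rw [← sq_abs, hσ]; norm_num
  set μ : ℝ := σ * (2 * ξ) with hμ
  have hμ1 : |μ| ≤ 1 := by
    rw [hμ, abs_mul, hσ, one_mul, abs_of_pos (by linarith)]; linarith
  have hμ2 : μ ^ 2 / 4 = ξ ^ 2 := by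
    rw [hμ]
    have : (σ * (2 * ξ)) ^ 2 / 4 = σ ^ 2 * ξ ^ 2 := by ring
    rw [this, hσ2, one_mul]
  set g : (Fin M → S) → ℝ := fun ω => ∏ s, Real.exp (μ * ((if A (ω s) then (1:ℝ) else 0) - p))
    with hg
  have hgsum : ∑ ω, g ω ≤ ((Fintype.card S : ℝ) * Real.exp (ξ ^ 2)) ^ M := by
    rw [hg]
    have h1 := Fintype.sum_pow
      (fun u : S => Real.exp (μ * ((if A u then (1:ℝ) else 0) - p))) M
    rw [← h1]
    have h2 := mgf S A μ hμ1
    rw [hμ2] at h2
    exact pow_le_pow_left₀ (Finset.sum_nonneg fun u _ => (Real.exp_pos _).le) h2 M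
  have hgval : ∀ ω, g ω = Real.exp (μ * (((univ.filter fun s => A (ω s)).card : ℝ) - M * p)) := by
    intro ω
    rw [hg]
    simp only
    rw [← Real.exp_sum, ← Finset.mul_sum, Finset.sum_sub_distrib, Finset.sum_boole,
      Finset.sum_const, Finset.card_univ, Fintype.card_fin, nsmul_eq_mul]
  have hge : ∀ ω ∈ (univ.filter fun ω : Fin M → S =>
      ξ ≤ σ * (((univ.filter fun s => A (ω s)).card : ℝ) / M - p)),
      Real.exp (2 * (M * ξ ^ 2)) ≤ g ω := by
    intro ω hω
    rw [Finset.mem_filter] at hω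
    rw [hgval ω]
    apply Real.exp_le_exp.mpr
    have h3 : μ * (((univ.filter fun s => A (ω s)).card : ℝ) - M * p) =
        2 * ξ * M * (σ * (((univ.filter fun s => A (ω s)).card : ℝ) / M - p)) := by
      rw [hμ]; field_simp
    rw [h3]
    calc 2 * (M * ξ ^ 2) = 2 * ξ * M * ξ := by ring
      _ ≤ _ := by
        apply mul_le_mul_of_nonneg_left hω.2 (by positivity)
  have hcount : ((univ.filter fun ω : Fin M → S =>
      ξ ≤ σ * (((univ.filter fun s => A (ω s)).card : ℝ) / M - p)).card : ℝ) *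
        Real.exp (2 * (M * ξ ^ 2)) ≤ ((Fintype.card S : ℝ) * Real.exp (ξ ^ 2)) ^ M := by
    rw [← nsmul_eq_mul]
    refine (Finset.card_nsmul_le_sum _ _ _ hge).trans (le_trans ?_ hgsum)
    exact Finset.sum_le_sum_of_subset_of_nonneg (Finset.filter_subset _ _)
      fun ω _ _ => Finset.prod_nonneg fun s _ => (Real.exp_pos _).le
  have hfin : ((Fintype.card S : ℝ) * Real.exp (ξ ^ 2)) ^ M =
      (Real.exp (- (M * ξ ^ 2)) * (Fintype.card (Fin M → S) : ℝ)) *
        Real.exp (2 * (M * ξ ^ 2)) := by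
    rw [mul_pow, ← Real.exp_nat_mul, Fintype.card_fun, Fintype.card_fin]
    push_cast
    have h4 : Real.exp ((M:ℝ) * ξ ^ 2) =
        Real.exp (- (M * ξ ^ 2)) * Real.exp (2 * (M * ξ ^ 2)) := by
      rw [← Real.exp_add]; congr 1; ring
    rw [h4]; ring
  rw [hfin] at hcount
  exact le_of_mul_le_mul_right hcount (Real.exp_pos _)

theorem thm : StmtHOEF := by
  intro S _ _ A _ M ξ hM hξ hξ'
  classical
  have h1 := side S A M ξ 1 hM hξ hξ' (by norm_num)
  have h2 := side S A M ξ (-1) hM hξ hξ' (by norm_num)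
  have h3 : (univ.filter fun ω : Fin M → S =>
      ξ ≤ |((univ.filter fun s => A (ω s)).card : ℝ) / M -
        ((univ.filter fun u => A u).card : ℝ) / (Fintype.card S : ℝ)|) ⊆
      (univ.filter fun ω : Fin M → S =>
        ξ ≤ 1 * (((univ.filter fun s => A (ω s)).card : ℝ) / M -
          ((univ.filter fun u => A u).card : ℝ) / (Fintype.card S : ℝ))) ∪
      (univ.filter fun ω : Fin M → S =>
        ξ ≤ (-1) * (((univ.filter fun s => A (ω s)).card : ℝ) / M -
          ((univ.filter fun u => A u).card : ℝ) / (Fintype.card S : ℝ))) := by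
    intro ω hω
    rw [Finset.mem_filter] at hω
    rw [Finset.mem_union, Finset.mem_filter, Finset.mem_filter]
    rcases le_abs.mp hω.2 with h | h
    · left; exact ⟨Finset.mem_univ _, by linarith⟩
    · right; exact ⟨Finset.mem_univ _, by linarith⟩
  have h4 : ((univ.filter fun ω : Fin M → S =>
      ξ ≤ |((univ.filter fun s => A (ω s)).card : ℝ) / M -
        ((univ.filter fun u => A u).card : ℝ) / (Fintype.card S : ℝ)|).card : ℝ) ≤
      ((univ.filter fun ω : Fin M → S =>
        ξ ≤ 1 * (((univ.filter fun s => A (ω s)).card : ℝ) / M -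
          ((univ.filter fun u => A u).card : ℝ) / (Fintype.card S : ℝ))).card : ℝ) +
      ((univ.filter fun ω : Fin M → S =>
        ξ ≤ (-1) * (((univ.filter fun s => A (ω s)).card : ℝ) / M -
          ((univ.filter fun u => A u).card : ℝ) / (Fintype.card S : ℝ))).card : ℝ) := by
    exact_mod_cast (Finset.card_le_card h3).trans (Finset.card_union_le _ _)
  calc _ ≤ _ := h4
    _ ≤ _ := add_le_add h1 h2
    _ = _ := by ring

end Vale.P328C.HOEF
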