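import Vale.Agent.P328.C.Defs

/-!
# P328, approximate counting, module IND (helper3): all stages
-/

namespace Vale.P328C.IND
open Finset BigOperators Vale.P328U Vale.P328B Vale.P328C

/-- counting over the first coordinate and the rest -/
theorem count_cons {A : Type} [Fintype A] (I : ℕ) (P : (Fin (I + 1) → A) → Prop)
    [DecidablePred P] (S : A → Prop) [DecidablePred S] (Q : A → (Fin I → A) → Prop)
    [∀ u, DecidablePred (Q u)]
    (h : ∀ ω, P ω → S (ω 0) ∨ Q (ω 0) (fun i => ω i.succ)) (a b : ℝ)
    (hS : ((univ.filter S).card : ℝ) ≤ a * (Fintype.card A : ℝ))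
    (hQ : ∀ u, ((univ.filter (Q u)).card : ℝ) ≤ b * (Fintype.card (Fin I → A) : ℝ)) :
    ((univ.filter P).card : ℝ) ≤ (a + b) * (Fintype.card (Fin (I + 1) → A) : ℝ) := by
  classical
  have h1 : ((univ.filter P).card : ℝ) = ∑ ω : Fin (I + 1) → A, if P ω then (1 : ℝ) else 0 := by
    rw [sum_boole]
  have h2 : ∑ ω : Fin (I + 1) → A, (if P ω then (1 : ℝ) else 0) ≤
      ∑ ω : Fin (I + 1) → A, ((if S (ω 0) then (1 : ℝ) else 0) +
        (if Q (ω 0) (fun i => ω i.succ) then (1 : ℝ) else 0)) := by
    refine sum_le_sum fun ω _ => ?_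
    by_cases hP : P ω
    · rw [if_pos hP]
      rcases h ω hP with h3 | h3
      · rw [if_pos h3]
        by_cases h4 : Q (ω 0) (fun i => ω i.succ)
        · rw [if_pos h4]; norm_num
        · rw [if_neg h4]; norm_num
      · rw [if_pos h3]
        by_cases h4 : S (ω 0)
        · rw [if_pos h4]; norm_num
        · rw [if_neg h4]; norm_num
    · rw [if_neg hP]
      by_cases h4 : Q (ω 0) (fun i => ω i.succ)
      · rw [if_pos h4]
        by_cases h5 : S (ω 0)
        · rw [if_pos h5]; norm_num
        · rw [if_neg h5]; norm_num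
      · rw [if_neg h4]
        by_cases h5 : S (ω 0)
        · rw [if_pos h5]; norm_num
        · rw [if_neg h5]; norm_num
  have h3 : ∑ ω : Fin (I + 1) → A, ((if S (ω 0) then (1 : ℝ) else 0) +
        (if Q (ω 0) (fun i => ω i.succ) then (1 : ℝ) else 0)) =
      ∑ p : A × (Fin I → A), ((if S p.1 then (1 : ℝ) else 0) +
        (if Q p.1 p.2 then (1 : ℝ) else 0)) := by
    symm
    refine Fintype.sum_equiv (Fin.consEquiv (fun _ => A)) _ _ ?_
    intro p
    rfl
  have h4 : ∑ p : A × (Fin I → A), ((if S p.1 then (1 : ℝ) else 0) +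
        (if Q p.1 p.2 then (1 : ℝ) else 0)) =
      ((univ.filter S).card : ℝ) * (Fintype.card (Fin I → A) : ℝ) +
        ∑ u : A, ((univ.filter (Q u)).card : ℝ) := by
    rw [Fintype.sum_prod_type]
    have e1 : ∀ u : A, ∑ w : Fin I → A, ((if S u then (1 : ℝ) else 0) +
        (if Q u w then (1 : ℝ) else 0)) =
        (Fintype.card (Fin I → A) : ℝ) * (if S u then (1 : ℝ) else 0) +
          ((univ.filter (Q u)).card : ℝ) := by
      intro u
      rw [sum_add_distrib, sum_const, card_univ, nsmul_eq_mul, sum_boole]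
    rw [sum_congr rfl fun u _ => e1 u, sum_add_distrib, ← mul_sum, sum_boole]
    ring
  have h5 : (Fintype.card (Fin (I + 1) → A) : ℝ) =
      (Fintype.card A : ℝ) * (Fintype.card (Fin I → A) : ℝ) := by
    rw [Fintype.card_fun, Fintype.card_fun, Fintype.card_fin, Fintype.card_fin, pow_succ]
    push_cast
    ring
  have h6 : ((univ.filter S).card : ℝ) * (Fintype.card (Fin I → A) : ℝ) ≤
      a * (Fintype.card A : ℝ) * (Fintype.card (Fin I → A) : ℝ) :=
    mul_le_mul_of_nonneg_right hS (Nat.cast_nonneg _)
  have h7 : ∑ u : A, ((univ.filter (Q u)).card : ℝ) ≤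
      (Fintype.card A : ℝ) * (b * (Fintype.card (Fin I → A) : ℝ)) := by
    refine (sum_le_sum fun u _ => hQ u).trans ?_
    rw [sum_const, card_univ, nsmul_eq_mul]
  rw [h1]
  refine h2.trans ?_
  rw [h3, h4, h5]
  linarith

/-- with total `0` there is exactly one table -/
theorem card_zero {m n : ℕ} (r : Fin m → ℕ) (c : Fin n → ℕ) (hr : ∑ i, r i = 0)
    (hc : ∑ j, c j = 0) : (Tables r c).card = 1 := by
  have hr0 : ∀ i, r i = 0 := fun i => (sum_eq_zero_iff.1 hr) i (mem_univ i)
  have hc0 : ∀ j, c j = 0 := fun j => (sum_eq_zero_iff.1 hc) j (mem_univ j)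
  rw [card_eq_one]
  refine ⟨fun _ _ => 0, ?_⟩
  ext X
  rw [mem_singleton]
  unfold Tables
  rw [mem_filter]
  constructor
  · intro h
    funext i j
    have h1 := h.2.1 i
    rw [hr0 i] at h1
    exact (sum_eq_zero_iff.1 h1) j (mem_univ j)
  · intro h
    subst h
    refine ⟨?_, fun i => ?_, fun j => ?_⟩
    · rw [Fintype.mem_piFinset]
      intro i
      rw [Fintype.mem_piFinset]
      intro j
      rw [mem_range]
      omega
    · rw [hr0 i]
      simp
    · rw [hc0 j]
      simp

theorem thm (hSTG : StmtSTG) (hPIG : StmtPIG) : StmtIND := by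
  intro m n D K T M N₀ hub pick J η ξ hm hM hξ hξ2 hη hx hG hpick I
  have hn : 1 ≤ n := by
    have := J.2
    omega
  set x : ℝ := (m : ℝ) * n * (ξ + η) with hxd
  have hx0 : 0 ≤ x := by
    rw [hxd]
    positivity
  set p : ℝ := (m : ℝ) * n * (2 * Real.exp (- (M * ξ ^ 2))) with hpd
  have hp0 : 0 ≤ p := by
    rw [hpd]
    positivity
  induction I with
  | zero =>
    intro r c hrc hN hI
    have hr0 : ∑ i, r i = 0 := by
      simp only [pow_zero, mul_one] at hI
      omega
    have hcard := card_zero r c hr0 (hrc ▸ hr0)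
    have hempty : (univ.filter fun ω : Fin 0 → Fin M → Sd m n D K T =>
      ¬ ((1 - x) ^ 0 * ((Tables r c).card : ℝ) ≤ est hub pick J 0 r c ω ∧
        est hub pick J 0 r c ω ≤ (1 + x) ^ 0 * ((Tables r c).card : ℝ))) = ∅ := by
      rw [filter_eq_empty_iff]
      intro ω _
      rw [not_not, hcard]
      unfold est
      simp
    rw [hempty]
    simp
  | succ I ih =>
    intro r c hrc hN hI
    by_cases hr0 : ∑ i, r i = 0
    · have hcard := card_zero r c hr0 (hrc ▸ hr0)
      have hempty : (univ.filter fun ω : Fin (I + 1) → Fin M → Sd m n D K T =>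
        ¬ ((1 - x) ^ (I + 1) * ((Tables r c).card : ℝ) ≤ est hub pick J (I + 1) r c ω ∧
          est hub pick J (I + 1) r c ω ≤ (1 + x) ^ (I + 1) * ((Tables r c).card : ℝ))) = ∅ := by
        rw [filter_eq_empty_iff]
        intro ω _
        rw [not_not, hcard]
        unfold est
        rw [if_pos hr0]
        constructor
        · rw [Nat.cast_one, mul_one]
          exact pow_le_one₀ (by linarith) (by linarith)
        · rw [Nat.cast_one, mul_one]
          exact one_le_pow₀ (by linarith)
      rw [hempty, card_empty]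
      push_cast
      positivity
    · have hr1 : 1 ≤ ∑ i, r i := Nat.one_le_iff_ne_zero.2 hr0
      -- the picked cell and the new margins
      set F : (Fin M → Sd m n D K T) → Fin m → Fin n → ℕ := fun u =>
        cnt (thr m n (∑ i, r i)) (smp hub J r c u) with hF
      set r' : (Fin M → Sd m n D K T) → Fin m → ℕ := fun u =>
        dec r (thr m n (∑ i, r i)) (pick (F u)).1 with hr'
      set c' : (Fin M → Sd m n D K T) → Fin n → ℕ := fun u =>
        dec c (thr m n (∑ i, r i)) (pick (F u)).2 with hc'
      have hest : ∀ ω : Fin (I + 1) → Fin M → Sd m n D K T,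
          est hub pick J (I + 1) r c ω = (M : ℝ) / (F (ω 0) (pick (F (ω 0))).1
            (pick (F (ω 0))).2 : ℝ) * est hub pick J I (r' (ω 0)) (c' (ω 0))
              (fun s => ω s.succ) := by
        intro ω
        conv_lhs => unfold est
        rw [if_neg hr0]
      have hpos : 0 < (Tables r c).card := card_pos.2 ⟨_, NW.nw_mem r c hrc⟩
      have hposR : (0 : ℝ) < ((Tables r c).card : ℝ) := by exact_mod_cast hpos
      -- one stage
      have hS := hSTG m n D K T M N₀ hub pick J η ξ r c hm hM hξ hξ2 hG hpick hrc hN hr1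
      -- the rest
      have hQ : ∀ u : Fin M → Sd m n D K T,
          ((univ.filter fun w : Fin I → Fin M → Sd m n D K T =>
            ¬ ((1 - x) ^ I * ((Tables (r' u) (c' u)).card : ℝ) ≤ est hub pick J I (r' u) (c' u) w ∧
              est hub pick J I (r' u) (c' u) w ≤
                (1 + x) ^ I * ((Tables (r' u) (c' u)).card : ℝ))).card : ℝ) ≤
            (I * p) * (Fintype.card (Fin I → Fin M → Sd m n D K T) : ℝ) := by
        intro u
        obtain ⟨_, _, _, h4, h5, h6⟩ := hPIG m n M r c (smp hub J r c u) (pick (F u)) hm hn hr1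
          (fun s => (hG r c hrc hN).1 (u s)) (fun i j => hpick (F u) i j) hM
        refine ih (r' u) (c' u) ?_ ?_ ?_
        · have h7 : ∑ i, r' u i + thr m n (∑ i, r i) = ∑ j, c' u j + thr m n (∑ i, r i) := by
            rw [hr', hc', h5, h6, hrc]
          omega
        · have h7 : ∑ i, r' u i ≤ ∑ i, r i := by
            rw [← h5, hr']
            exact Nat.le_add_right _ _
          omega
        · have hmn : 0 < m * n := Nat.mul_pos (by omega) (by omega)
          have h8 : (m * n) * ((∑ i, r' u i) * (m * n - 1) ^ I) < (m * n) * (m * n) ^ I := by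
            calc (m * n) * ((∑ i, r' u i) * (m * n - 1) ^ I)
                = (m * n * (∑ i, r' u i)) * (m * n - 1) ^ I := by ring
              _ ≤ ((m * n - 1) * ∑ i, r i) * (m * n - 1) ^ I := Nat.mul_le_mul_right _ h4
              _ = (∑ i, r i) * (m * n - 1) ^ (I + 1) := by ring
              _ < (m * n) ^ (I + 1) := hI
              _ = (m * n) * (m * n) ^ I := by ring
          exact Nat.lt_of_mul_lt_mul_left h8
      have hfin := count_cons I
        (fun ω : Fin (I + 1) → Fin M → Sd m n D K T =>
          ¬ ((1 - x) ^ (I + 1) * ((Tables r c).card : ℝ) ≤ est hub pick J (I + 1) r c ω ∧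
            est hub pick J (I + 1) r c ω ≤ (1 + x) ^ (I + 1) * ((Tables r c).card : ℝ)))
        _ _ ?_ p (I * p) hS hQ
      · refine hfin.trans (le_of_eq ?_)
        push_cast
        ring
      · intro ω hω
        by_contra hcon
        rw [not_or, not_not, not_not] at hcon
        obtain ⟨hs, hq⟩ := hcon
        apply hω
        rw [hest]
        set u := ω 0
        set W : ℝ := est hub pick J I (r' u) (c' u) (fun s => ω s.succ) with hW
        have hs1 : 1 - x ≤ ((Tables (r' u) (c' u)).card : ℝ) * M /
            ((Tables r c).card * (F u (pick (F u)).1 (pick (F u)).2 : ℝ)) := hs.1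
        have hs2 : ((Tables (r' u) (c' u)).card : ℝ) * M /
            ((Tables r c).card * (F u (pick (F u)).1 (pick (F u)).2 : ℝ)) ≤ 1 + x := hs.2
        set f : ℝ := (F u (pick (F u)).1 (pick (F u)).2 : ℝ) with hf
        set O' : ℝ := ((Tables (r' u) (c' u)).card : ℝ) with hO'
        set O : ℝ := ((Tables r c).card : ℝ) with hO
        have hf0 : 0 ≤ (M : ℝ) / f := by positivity
        have e1 : O' * M / (O * f) = (M / f * O') / O := by
          rw [mul_div_mul_comm]
          ring
        rw [e1, le_div_iff₀ hposR] at hs1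
        rw [e1, div_le_iff₀ hposR] at hs2
        have h1x : 0 ≤ 1 - x := by linarith
        have h2x : 0 ≤ 1 + x := by linarith
        constructor
        · calc (1 - x) ^ (I + 1) * O = (1 - x) ^ I * ((1 - x) * O) := by ring
            _ ≤ (1 - x) ^ I * (M / f * O') := mul_le_mul_of_nonneg_left hs1 (pow_nonneg h1x I)
            _ = M / f * ((1 - x) ^ I * O') := by ring
            _ ≤ M / f * W := mul_le_mul_of_nonneg_left hq.1 hf0
        · calc M / f * W ≤ M / f * ((1 + x) ^ I * O') := mul_le_mul_of_nonneg_left hq.2 hf0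
            _ = (1 + x) ^ I * (M / f * O') := by ring
            _ ≤ (1 + x) ^ I * ((1 + x) * O) := mul_le_mul_of_nonneg_left hs2 (pow_nonneg h2x I)
            _ = (1 + x) ^ (I + 1) * O := by ring

end Vale.P328C.IND
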