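import Vale.Agent.P328.B.GLUN
import Vale.Agent.P328.C.Defs

/-! # P328, FPRAS: explicit parameters and their sizes (helper25) -/

namespace Vale.P328C.NUMC
open Finset BigOperators Vale.P328U Vale.P328B

/-- number of stages -/
def stages (m n D : ℕ) : ℕ := m * n * (D + 1)

/-- number of samples of one stage; `a ≥ 1 / ε`, `b ≥ log (1 / δ)` -/
def samples (m n D a b : ℕ) : ℕ :=
  16 * (m * n) ^ 2 * stages m n D ^ 2 * a ^ 2 * (2 * m * n * stages m n D + b)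

/-- accuracy bits of one sample -/
def bits (m n D a : ℕ) : ℕ := 4 * m * n * stages m n D * a

lemma eta_inv (m n D a : ℕ) (ε : ℝ) (ha : 1 / ε ≤ a) :
    1 / (ε / (4 * m * n * (stages m n D : ℝ))) ≤ (bits m n D a : ℕ) := by
  have e1 : 1 / (ε / (4 * m * n * (stages m n D : ℝ))) =
      4 * m * n * (stages m n D : ℝ) * (1 / ε) := by
    rw [one_div_div]
    ring
  rw [e1]
  unfold bits
  push_cast
  exact mul_le_mul_of_nonneg_left ha (by positivity)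

lemma log_eta (m n D a : ℕ) (hm : 1 ≤ m) (hn : 1 ≤ n) (ε : ℝ) (h0 : 0 < ε) (ha : 1 / ε ≤ a) :
    Real.log (1 / (ε / (4 * m * n * (stages m n D : ℝ)))) ≤ (bits m n D a : ℕ) := by
  have hm' : (1 : ℝ) ≤ m := by exact_mod_cast hm
  have hn' : (1 : ℝ) ≤ n := by exact_mod_cast hn
  have hI : (0 : ℝ) < stages m n D := by
    unfold stages
    have : 0 < m * n * (D + 1) := by positivity
    exact_mod_cast this
  have hp : 0 < 1 / (ε / (4 * m * n * (stages m n D : ℝ))) := by positivity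
  have h1 := Real.log_le_sub_one_of_pos hp
  have h2 := eta_inv m n D a ε ha
  linarith

lemma K_ge (m n D a : ℕ) (hm : 1 ≤ m) (hn : 1 ≤ n) (ε : ℝ) (h0 : 0 < ε) (ha : 1 / ε ≤ a) :
    2 * m * n * Real.log (4 / (ε / (4 * m * n * (stages m n D : ℝ)))) ≤
      (GLUN.attempts m n (bits m n D a) : ℕ) := by
  have hm' : (1 : ℝ) ≤ m := by exact_mod_cast hm
  have hn' : (1 : ℝ) ≤ n := by exact_mod_cast hn
  have hI : (0 : ℝ) < stages m n D := by
    unfold stages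
    have : 0 < m * n * (D + 1) := by positivity
    exact_mod_cast this
  have h2 := log_eta m n D a hm hn ε h0 ha
  set η : ℝ := ε / (4 * m * n * (stages m n D : ℝ)) with hη
  have hη0 : 0 < η := by rw [hη]; positivity
  have h3 : Real.log (4 / η) ≤ (bits m n D a : ℝ) + 2 := by
    have : (4 : ℝ) / η = 4 * (1 / η) := by ring
    rw [this, Real.log_mul (by norm_num) (by positivity)]
    have h4 : Real.log 4 ≤ 2 := by
      have : (4 : ℝ) = 2 ^ 2 := by norm_num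
      rw [this, Real.log_pow]
      have := Real.log_two_lt_d9
      push_cast
      linarith
    linarith
  unfold GLUN.attempts
  push_cast
  exact mul_le_mul_of_nonneg_left h3 (by positivity)

lemma T_ge (m n N D a : ℕ) (hm : 1 ≤ m) (hn : 1 ≤ n) (hN : N < 2 ^ (D + 1)) (ε : ℝ)
    (h0 : 0 < ε) (ha : 1 / ε ≤ a) :
    (16000 * (m : ℝ) ^ 4 * (n : ℝ) ^ 11 * ((D : ℝ) + 1) ^ 2 * (1 + Real.log ((N : ℝ) + 2))) *
      (m * n * Real.log (N + 2) +
        Real.log (8 * m * n / (ε / (4 * m * n * (stages m n D : ℝ))))) ≤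
      (GLUN.steps m n D (bits m n D a) : ℕ) := by
  have hm' : (1 : ℝ) ≤ m := by exact_mod_cast hm
  have hn' : (1 : ℝ) ≤ n := by exact_mod_cast hn
  have hI : (0 : ℝ) < stages m n D := by
    unfold stages
    have : 0 < m * n * (D + 1) := by positivity
    exact_mod_cast this
  have h2 := log_eta m n D a hm hn ε h0 ha
  set η : ℝ := ε / (4 * m * n * (stages m n D : ℝ)) with hη
  have hη0 : 0 < η := by rw [hη]; positivity
  have h3 := GLUN.log_le N D hN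
  have hl0 : 0 ≤ Real.log ((N : ℝ) + 2) := Real.log_nonneg (by
    have : (0 : ℝ) ≤ N := Nat.cast_nonneg _
    linarith)
  have h4 : Real.log (8 * m * n / η) ≤ 3 + m * n + bits m n D a := by
    have e1 : (8 : ℝ) * m * n / η = 8 * (m * n) * (1 / η) := by ring
    rw [e1, Real.log_mul (by positivity) (by positivity), Real.log_mul (by norm_num)
      (by positivity)]
    have e2 : Real.log 8 ≤ 3 := by
      have : (8 : ℝ) = 2 ^ 3 := by norm_num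
      rw [this, Real.log_pow]
      have := Real.log_two_lt_d9
      push_cast
      linarith
    have e3 : Real.log ((m : ℝ) * n) ≤ m * n := by
      have := Real.log_le_sub_one_of_pos (show (0 : ℝ) < m * n by positivity)
      linarith
    linarith
  have h5 : (m : ℝ) * n * Real.log (N + 2) ≤ m * n * ((D : ℝ) + 2) :=
    mul_le_mul_of_nonneg_left h3 (by positivity)
  have h6 : (m : ℝ) * n * Real.log (N + 2) + Real.log (8 * m * n / η) ≤
      m * n * (D + 3) + bits m n D a + 3 := by linarith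
  have h7 : 0 ≤ (m : ℝ) * n * (D + 3) + bits m n D a + 3 := by positivity
  calc (16000 * (m : ℝ) ^ 4 * (n : ℝ) ^ 11 * ((D : ℝ) + 1) ^ 2 * (1 + Real.log ((N : ℝ) + 2))) *
      (m * n * Real.log (N + 2) + Real.log (8 * m * n / η))
      ≤ 16000 * (m : ℝ) ^ 4 * (n : ℝ) ^ 11 * ((D : ℝ) + 1) ^ 2 * (1 + Real.log ((N : ℝ) + 2)) *
      (m * n * (D + 3) + bits m n D a + 3) := mul_le_mul_of_nonneg_left h6 (by positivity)
    _ ≤ 16000 * (m : ℝ) ^ 4 * (n : ℝ) ^ 11 * ((D : ℝ) + 1) ^ 2 * ((D : ℝ) + 3) *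
      (m * n * (D + 3) + bits m n D a + 3) := by
        apply mul_le_mul_of_nonneg_right _ h7
        apply mul_le_mul_of_nonneg_left _ (by positivity)
        linarith
    _ = (GLUN.steps m n D (bits m n D a) : ℕ) := by
        unfold GLUN.steps
        push_cast
        ring

lemma M_ge (m n D a b : ℕ) (hm : 1 ≤ m) (hn : 1 ≤ n) (ε δ : ℝ) (h0 : 0 < ε) (ha : 1 / ε ≤ a)
    (d0 : 0 < δ) (hb : Real.log (1 / δ) ≤ b) :
    16 * ((m : ℝ) * n) ^ 2 * (stages m n D : ℝ) ^ 2 / ε ^ 2 *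
      Real.log (2 * m * n * (stages m n D : ℝ) / δ) ≤ (samples m n D a b : ℕ) := by
  have hm' : (1 : ℝ) ≤ m := by exact_mod_cast hm
  have hn' : (1 : ℝ) ≤ n := by exact_mod_cast hn
  have hI : (0 : ℝ) < stages m n D := by
    unfold stages
    have : 0 < m * n * (D + 1) := by positivity
    exact_mod_cast this
  have h1 : Real.log (2 * m * n * (stages m n D : ℝ) / δ) ≤
      2 * m * n * (stages m n D : ℝ) + b := by
    have e1 : 2 * m * n * (stages m n D : ℝ) / δ = (2 * m * n * (stages m n D : ℝ)) * (1 / δ) := by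
      ring
    rw [e1, Real.log_mul (by positivity) (by positivity)]
    have := Real.log_le_sub_one_of_pos (show (0 : ℝ) < 2 * m * n * (stages m n D : ℝ) by positivity)
    linarith
  have h2 : 16 * ((m : ℝ) * n) ^ 2 * (stages m n D : ℝ) ^ 2 / ε ^ 2 ≤
      16 * ((m : ℝ) * n) ^ 2 * (stages m n D : ℝ) ^ 2 * (a : ℝ) ^ 2 := by
    have e2 : 16 * ((m : ℝ) * n) ^ 2 * (stages m n D : ℝ) ^ 2 / ε ^ 2 =
        16 * ((m : ℝ) * n) ^ 2 * (stages m n D : ℝ) ^ 2 * (1 / ε) ^ 2 := by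
      rw [one_div, inv_pow, div_eq_mul_inv]
    rw [e2]
    gcongr
  have h3 : 0 ≤ 2 * m * n * (stages m n D : ℝ) + b := by positivity
  calc 16 * ((m : ℝ) * n) ^ 2 * (stages m n D : ℝ) ^ 2 / ε ^ 2 *
      Real.log (2 * m * n * (stages m n D : ℝ) / δ)
      ≤ 16 * ((m : ℝ) * n) ^ 2 * (stages m n D : ℝ) ^ 2 / ε ^ 2 *
        (2 * m * n * (stages m n D : ℝ) + b) := mul_le_mul_of_nonneg_left h1 (by positivity)
    _ ≤ 16 * ((m : ℝ) * n) ^ 2 * (stages m n D : ℝ) ^ 2 * (a : ℝ) ^ 2 *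
        (2 * m * n * (stages m n D : ℝ) + b) := mul_le_mul_of_nonneg_right h2 h3
    _ = (samples m n D a b : ℕ) := by
        unfold samples
        push_cast
        ring

section core
variable {m n D a b W : ℝ}

lemma core1 (hm : 0 ≤ m) (hn : 0 ≤ n) (hD : 0 ≤ D) (h1 : m ≤ W) (h2 : n ≤ W) (h3 : D + 1 ≤ W) :
    m * n * (D + 1) ≤ W ^ 3 := by
  have hW : 0 ≤ W := hm.trans h1
  calc m * n * (D + 1) ≤ W * W * W := by gcongr
    _ = W ^ 3 := by ring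

lemma core2 (hm : 0 ≤ m) (hn : 0 ≤ n) (hst0 : 0 ≤ m * n * (D + 1)) (h1 : m ≤ W) (h2 : n ≤ W)
    (hst : m * n * (D + 1) ≤ W ^ 3) (ha0 : 0 ≤ a) (ha : a ≤ 2 * W) (hb : b ≤ W) (hW : 1 ≤ W)
    (hb0 : 0 ≤ b) :
    16 * (m * n) ^ 2 * (m * n * (D + 1)) ^ 2 * a ^ 2 * (2 * m * n * (m * n * (D + 1)) + b) ≤
      192 * W ^ 17 := by
  have hW0 : 0 ≤ W := by linarith
  set s := m * n * (D + 1) with hs
  have p5 : W ≤ W ^ 5 := le_self_pow₀ hW (by norm_num)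
  have hsm : 2 * m * n * s + b ≤ 3 * W ^ 5 := by
    have : 2 * m * n * s ≤ 2 * W * W * W ^ 3 := by gcongr
    nlinarith
  calc 16 * (m * n) ^ 2 * s ^ 2 * a ^ 2 * (2 * m * n * s + b)
      ≤ 16 * (W * W) ^ 2 * (W ^ 3) ^ 2 * (2 * W) ^ 2 * (3 * W ^ 5) := by gcongr
    _ = 192 * W ^ 17 := by ring

lemma core3a (hm : 0 ≤ m) (hn : 0 ≤ n) (hst0 : 0 ≤ m * n * (D + 1)) (h1 : m ≤ W) (h2 : n ≤ W)
    (hst : m * n * (D + 1) ≤ W ^ 3) (ha0 : 0 ≤ a) (ha : a ≤ 2 * W) :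
    4 * m * n * (m * n * (D + 1)) * a ≤ 8 * W ^ 6 := by
  have hW0 : 0 ≤ W := hm.trans h1
  set s := m * n * (D + 1) with hs
  calc 4 * m * n * s * a ≤ 4 * W * W * W ^ 3 * (2 * W) := by gcongr
    _ = 8 * W ^ 6 := by ring

lemma core3 {e : ℝ} (hm : 0 ≤ m) (hn : 0 ≤ n) (he : 0 ≤ e) (h1 : m ≤ W) (h2 : n ≤ W) (hW : 1 ≤ W)
    (h3 : e ≤ 8 * W ^ 6) : 2 * m * n * (e + 2) ≤ 20 * W ^ 8 := by
  have hW0 : 0 ≤ W := by linarith
  have p6 : 1 ≤ W ^ 6 := one_le_pow₀ hW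
  have h4 : e + 2 ≤ 10 * W ^ 6 := by linarith
  calc 2 * m * n * (e + 2) ≤ 2 * W * W * (10 * W ^ 6) := by gcongr
    _ = 20 * W ^ 8 := by ring

lemma core4 {e : ℝ} (hm : 0 ≤ m) (hn : 0 ≤ n) (hD : 0 ≤ D) (he : 0 ≤ e) (h1 : m ≤ W) (h2 : n ≤ W)
    (h3 : D + 1 ≤ W) (h4 : D + 3 ≤ 3 * W) (hW : 1 ≤ W) (h5 : e ≤ 8 * W ^ 6) :
    16000 * m ^ 4 * n ^ 11 * (D + 1) ^ 2 * (D + 3) * (m * n * (D + 3) + e + 3) ≤
      672000 * W ^ 24 := by
  have hW0 : 0 ≤ W := by linarith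
  have p6 : 1 ≤ W ^ 6 := one_le_pow₀ hW
  have p36 : W ^ 3 ≤ W ^ 6 := pow_le_pow_right₀ hW (by norm_num)
  have hT : m * n * (D + 3) + e + 3 ≤ 14 * W ^ 6 := by
    have : m * n * (D + 3) ≤ W * W * (3 * W) := by gcongr
    nlinarith
  have hT0 : 0 ≤ m * n * (D + 3) + e + 3 := by positivity
  have q : 16000 * m ^ 4 * n ^ 11 * (D + 1) ^ 2 * (D + 3) ≤
      16000 * W ^ 4 * W ^ 11 * W ^ 2 * (3 * W) := by gcongr
  refine (mul_le_mul q hT hT0 (by positivity)).trans (le_of_eq ?_)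
  ring

lemma core5 {p1 p2 p3 p4 : ℝ} (hW : 0 ≤ W) (t2 : 0 ≤ p2) (t3 : 0 ≤ p3) (t4 : 0 ≤ p4)
    (h1 : p1 ≤ W ^ 3) (h2 : p2 ≤ 192 * W ^ 17) (h3 : p3 ≤ 20 * W ^ 8) (h4 : p4 ≤ 672000 * W ^ 24) :
    p1 * p2 * (p3 * p4) ≤ 3 * 10 ^ 9 * W ^ 52 := by
  have u1 := mul_le_mul h1 h2 t2 (by positivity)
  have u2 := mul_le_mul h3 h4 t4 (by positivity)
  have u3 := mul_le_mul u1 u2 (mul_nonneg t3 t4) (by positivity)
  refine u3.trans ?_
  have e : W ^ 3 * (192 * W ^ 17) * (20 * W ^ 8 * (672000 * W ^ 24)) = 2580480000 * W ^ 52 := by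
    ring
  rw [e]
  apply mul_le_mul_of_nonneg_right _ (by positivity)
  norm_num

end core

/-- total number of random choices -/
lemma total_le {m n : ℕ} (r : Fin m → ℕ) (c : Fin n → ℕ) (hm : 1 ≤ m) (hn : 1 ≤ n) (ε δ : ℝ)
    (h0 : 0 < ε) (h1 : ε < 1) (d0 : 0 < δ) (d1 : δ < 1) :
    ((stages m n (Nat.log 2 (∑ i, r i)) *
      samples m n (Nat.log 2 (∑ i, r i)) ⌈1 / ε⌉₊ ⌈Real.log (1 / δ)⌉₊ *
      (GLUN.attempts m n (bits m n (Nat.log 2 (∑ i, r i)) ⌈1 / ε⌉₊) *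
        GLUN.steps m n (Nat.log 2 (∑ i, r i)) (bits m n (Nat.log 2 (∑ i, r i)) ⌈1 / ε⌉₊)) : ℕ) :
        ℝ) ≤
      3 * 10 ^ 9 * (GLUN.len r c + 1 / ε + Real.log (1 / δ)) ^ 52 := by
  have hm' : (1 : ℝ) ≤ m := by exact_mod_cast hm
  have hn' : (1 : ℝ) ≤ n := by exact_mod_cast hn
  have hD := GLUN.D_le r c hn
  have hl : 0 ≤ Real.log (1 / δ) := by
    apply Real.log_nonneg
    rw [le_div_iff₀ d0]
    linarith
  have he : 1 ≤ 1 / ε := by
    rw [le_div_iff₀ h0]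
    linarith
  have ha : ((⌈1 / ε⌉₊ : ℕ) : ℝ) ≤ 2 * (1 / ε) := by
    have := (Nat.ceil_lt_add_one (show 0 ≤ 1 / ε by positivity)).le
    linarith
  have hb : ((⌈Real.log (1 / δ)⌉₊ : ℕ) : ℝ) ≤ Real.log (1 / δ) + 1 :=
    (Nat.ceil_lt_add_one hl).le
  have hm0 : (0 : ℝ) ≤ m := by linarith
  have hn0 : (0 : ℝ) ≤ n := by linarith
  set D : ℝ := ((Nat.log 2 (∑ i, r i) : ℕ) : ℝ) with hDdef
  have hD0 : 0 ≤ D := Nat.cast_nonneg _
  set a : ℝ := ((⌈1 / ε⌉₊ : ℕ) : ℝ) with hadef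
  have ha0 : 0 ≤ a := Nat.cast_nonneg _
  set b : ℝ := ((⌈Real.log (1 / δ)⌉₊ : ℕ) : ℝ) with hbdef
  have hb0 : 0 ≤ b := Nat.cast_nonneg _
  set W : ℝ := GLUN.len r c + 1 / ε + Real.log (1 / δ) with hW
  have hS1 : (m : ℝ) ≤ W := by linarith
  have hS2 : (n : ℝ) ≤ W := by linarith
  have hS3 : D + 1 ≤ W := by linarith
  have hS5 : a ≤ 2 * W := by linarith
  have hS6 : D + 3 ≤ 3 * W := by linarith
  have hS7 : b ≤ W := by linarith
  have hW1 : 1 ≤ W := by linarith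
  have hW0 : 0 ≤ W := by linarith
  have hst := core1 hm0 hn0 hD0 hS1 hS2 hS3
  have hst0 : 0 ≤ (m : ℝ) * n * (D + 1) := by positivity
  have q2 := core2 hm0 hn0 hst0 hS1 hS2 hst ha0 hS5 hS7 hW1 hb0
  have hbt := core3a hm0 hn0 hst0 hS1 hS2 hst ha0 hS5
  have hbt0 : 0 ≤ 4 * (m : ℝ) * n * (m * n * (D + 1)) * a := by positivity
  have q3 := core3 hm0 hn0 hbt0 hS1 hS2 hW1 hbt
  have q4 := core4 hm0 hn0 hD0 hbt0 hS1 hS2 hS3 hS6 hW1 hbt
  have t2 : 0 ≤ 16 * ((m : ℝ) * n) ^ 2 * (m * n * (D + 1)) ^ 2 * a ^ 2 *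
      (2 * m * n * (m * n * (D + 1)) + b) := by positivity
  have t3 : 0 ≤ 2 * (m : ℝ) * n * (4 * m * n * (m * n * (D + 1)) * a + 2) := by positivity
  have t4 : 0 ≤ 16000 * (m : ℝ) ^ 4 * n ^ 11 * (D + 1) ^ 2 * (D + 3) *
      (m * n * (D + 3) + 4 * m * n * (m * n * (D + 1)) * a + 3) := by positivity
  have hval : ((stages m n (Nat.log 2 (∑ i, r i)) *
      samples m n (Nat.log 2 (∑ i, r i)) ⌈1 / ε⌉₊ ⌈Real.log (1 / δ)⌉₊ *
      (GLUN.attempts m n (bits m n (Nat.log 2 (∑ i, r i)) ⌈1 / ε⌉₊) *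
        GLUN.steps m n (Nat.log 2 (∑ i, r i)) (bits m n (Nat.log 2 (∑ i, r i)) ⌈1 / ε⌉₊)) : ℕ) :
        ℝ) = (m : ℝ) * n * (D + 1) *
        (16 * (m * n) ^ 2 * (m * n * (D + 1)) ^ 2 * a ^ 2 * (2 * m * n * (m * n * (D + 1)) + b)) *
        (2 * m * n * (4 * m * n * (m * n * (D + 1)) * a + 2) *
          (16000 * m ^ 4 * n ^ 11 * (D + 1) ^ 2 * (D + 3) *
            (m * n * (D + 3) + 4 * m * n * (m * n * (D + 1)) * a + 3))) := by
    unfold samples GLUN.attempts GLUN.steps bits stages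
    push_cast
    rfl
  rw [hval]
  exact core5 hW0 t2 t3 t4 hst q2 q3 q4

end Vale.P328C.NUMC
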