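import Vale.Agent.P328.C.Defs

/-! # P328, counting: module PIG (helper6) -/

namespace Vale.P328C.PIG
open Finset BigOperators Vale.P328U Vale.P328B Vale.P328C

theorem mem_T {m n : ℕ} {r : Fin m → ℕ} {c : Fin n → ℕ} {X : Fin m → Fin n → ℕ}
    (h : X ∈ Tables r c) : (∀ i, ∑ j, X i j = r i) ∧ ∀ j, ∑ i, X i j = c j :=
  (mem_filter.1 h).2

theorem sum_dec {m : ℕ} (r : Fin m → ℕ) (t : ℕ) (a : Fin m) (h : t ≤ r a) :
    ∑ i, dec r t a i + t = ∑ i, r i := by
  have h1 : ∑ i, dec r t a i = (r a - t) + ∑ i ∈ univ.erase a, r i := by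
    rw [← Finset.add_sum_erase univ (dec r t a) (mem_univ a)]
    congr 1
    · simp [dec]
    · refine sum_congr rfl fun i hi => ?_
      simp [dec, Function.update_of_ne (ne_of_mem_erase hi)]
  have h2 : ∑ i, r i = r a + ∑ i ∈ univ.erase a, r i :=
    (Finset.add_sum_erase univ r (mem_univ a)).symm
  omega

theorem thm : StmtPIG := by
  intro m n M r c X q hm hn hN hX hmax hM
  set N := ∑ i, r i with hNdef
  set p := m * n with hp
  have hp1 : 1 ≤ p := Nat.mul_le_mul hm hn
  set t := thr m n N with ht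
  have ht' : t = (N + p - 1) / p := rfl
  -- ceiling properties
  have hc1 : N ≤ p * t := by
    have h1 := Nat.div_add_mod (N + p - 1) p
    have h2 := Nat.mod_lt (N + p - 1) (show 0 < p from hp1)
    rw [← ht'] at h1
    omega
  have hc2 : p * t ≤ N + p - 1 := by
    rw [ht']; exact Nat.mul_div_le _ _
  have ht1 : 1 ≤ t := by
    by_contra h
    have : t = 0 := by omega
    rw [this] at hc1
    omega
  -- every sample has a large entry
  have hlarge : ∀ s, ∃ i j, t ≤ X s i j := by
    intro s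
    by_contra hcon
    push Not at hcon
    have h1 : N = ∑ i, ∑ j, X s i j := by
      rw [hNdef]
      exact sum_congr rfl fun i _ => ((mem_T (hX s)).1 i).symm
    have h2 : ∑ i : Fin m, ∑ j : Fin n, X s i j ≤ ∑ i : Fin m, ∑ j : Fin n, (t - 1) :=
      sum_le_sum fun i _ => sum_le_sum fun j _ => by
        have := hcon i j
        omega
    have h3 : ∑ i : Fin m, ∑ j : Fin n, (t - 1) = p * (t - 1) := by
      simp only [sum_const, card_univ, Fintype.card_fin, smul_eq_mul]
      rw [hp, mul_assoc]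
    have h4 : p * (t - 1) + p = p * t := by
      obtain ⟨u, hu⟩ : ∃ u, t = u + 1 := ⟨t - 1, by omega⟩
      rw [hu]
      simp only [Nat.add_sub_cancel]
      ring
    omega
  -- counting
  have hcount : M ≤ p * cnt t X q.1 q.2 := by
    have h1 : ∀ s, 1 ≤ ∑ i : Fin m, ∑ j : Fin n, (if t ≤ X s i j then 1 else 0) := by
      intro s
      obtain ⟨i, j, hij⟩ := hlarge s
      calc 1 = (if t ≤ X s i j then 1 else 0) := by rw [if_pos hij]
        _ ≤ ∑ j : Fin n, (if t ≤ X s i j then 1 else 0) :=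
            Finset.single_le_sum (f := fun j => if t ≤ X s i j then 1 else 0)
              (fun _ _ => Nat.zero_le _) (mem_univ j)
        _ ≤ ∑ i : Fin m, ∑ j : Fin n, (if t ≤ X s i j then 1 else 0) :=
            Finset.single_le_sum (f := fun i => ∑ j : Fin n, if t ≤ X s i j then 1 else 0)
              (fun _ _ => Nat.zero_le _) (mem_univ i)
    have h2 : M ≤ ∑ s : Fin M, ∑ i : Fin m, ∑ j : Fin n, (if t ≤ X s i j then 1 else 0) := by
      calc M = ∑ s : Fin M, 1 := by simp
        _ ≤ _ := sum_le_sum fun s _ => h1 s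
    have h3 : ∑ s : Fin M, ∑ i : Fin m, ∑ j : Fin n, (if t ≤ X s i j then 1 else 0) =
        ∑ i : Fin m, ∑ j : Fin n, cnt t X i j := by
      rw [sum_comm]
      refine sum_congr rfl fun i _ => ?_
      rw [sum_comm]
      refine sum_congr rfl fun j _ => ?_
      unfold cnt
      rw [card_filter]
    have h4 : ∑ i : Fin m, ∑ j : Fin n, cnt t X i j ≤ ∑ i : Fin m, ∑ j : Fin n,
        cnt t X q.1 q.2 := sum_le_sum fun i _ => sum_le_sum fun j _ => hmax i j
    have h5 : ∑ i : Fin m, ∑ j : Fin n, cnt t X q.1 q.2 = p * cnt t X q.1 q.2 := by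
      simp only [sum_const, card_univ, Fintype.card_fin, smul_eq_mul]
      rw [hp, mul_assoc]
    omega
  have hpos : 0 < cnt t X q.1 q.2 := by
    by_contra h
    have : cnt t X q.1 q.2 = 0 := by omega
    rw [this] at hcount
    omega
  obtain ⟨s, hs⟩ := card_pos.1 hpos
  have hs' : t ≤ X s q.1 q.2 := (mem_filter.1 hs).2
  have hr : t ≤ r q.1 := by
    rw [← (mem_T (hX s)).1 q.1]
    exact le_trans hs' (Finset.single_le_sum (f := fun j => X s q.1 j)
      (fun _ _ => Nat.zero_le _) (mem_univ q.2))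
  have hc : t ≤ c q.2 := by
    rw [← (mem_T (hX s)).2 q.2]
    exact le_trans hs' (Finset.single_le_sum (f := fun i => X s i q.2)
      (fun _ _ => Nat.zero_le _) (mem_univ q.1))
  have hd1 := sum_dec r t q.1 hr
  have hd2 := sum_dec c t q.2 hc
  refine ⟨hcount, hr, hc, ?_, hd1, hd2⟩
  have h6 : p * (∑ i, dec r t q.1 i) + p * t = p * N := by
    rw [← mul_add, hd1]
  have h7 : (p - 1) * N + N = p * N := by
    obtain ⟨u, hu⟩ : ∃ u, p = u + 1 := ⟨p - 1, by omega⟩
    rw [hu]
    simp only [Nat.add_sub_cancel]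
    ring
  omega

end Vale.P328C.PIG
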