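import Vale.Agent.P328.C.PIG

/-! # P328, counting: module STG (helper6) : one stage -/

namespace Vale.P328C.STG
open Finset BigOperators Vale.P328U Vale.P328B Vale.P328C

/-- the probability of an event under the law of a table -/
theorem law_sum {m n : ℕ} {S : Type} [Fintype S] (out : S → Fin m → Fin n → ℕ)
    (G : Finset (Fin m → Fin n → ℕ)) (p : (Fin m → Fin n → ℕ) → Prop) [DecidablePred p]
    (h : ∀ σ, p (out σ) ↔ out σ ∈ G) :
    ∑ X ∈ G, lawOf out X = ((univ.filter fun σ => p (out σ)).card : ℝ) / (Fintype.card S : ℝ) := by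
  classical
  unfold lawOf
  rw [← sum_div]
  congr 1
  have h1 : (univ.filter fun σ => p (out σ)).card =
      ∑ b ∈ G, ((univ.filter fun σ => p (out σ)).filter fun σ => out σ = b).card :=
    card_eq_sum_card_fiberwise (fun σ hσ => by
      have := (mem_filter.1 hσ).2
      exact (h σ).1 this)
  rw [h1]
  push_cast
  refine sum_congr rfl fun X hX => ?_
  congr 2
  ext σ
  simp only [mem_filter, mem_univ, true_and]
  constructor
  · intro he
    exact ⟨(h σ).2 (by rw [he]; exact hX), he⟩
  · rintro ⟨_, he⟩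
    exact he

theorem half {α : Type} [DecidableEq α] (Ω : Finset α) (g : α → ℝ) (h0 : ∑ x ∈ Ω, g x = 0)
    (p : α → Prop) [DecidablePred p] :
    |∑ x ∈ Ω.filter p, g x| ≤ (1 / 2) * ∑ x ∈ Ω, |g x| := by
  have h1 := sum_filter_add_sum_filter_not Ω p g
  have h2 : |∑ x ∈ Ω.filter p, g x| ≤ ∑ x ∈ Ω.filter p, |g x| := abs_sum_le_sum_abs _ _
  have h3 : |∑ x ∈ Ω.filter (fun x => ¬ p x), g x| ≤ ∑ x ∈ Ω.filter (fun x => ¬ p x), |g x| :=
    abs_sum_le_sum_abs _ _
  have h4 := sum_filter_add_sum_filter_not Ω p (fun x => |g x|)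
  have h5 : |∑ x ∈ Ω.filter (fun x => ¬ p x), g x| = |∑ x ∈ Ω.filter p, g x| := by
    have : ∑ x ∈ Ω.filter (fun x => ¬ p x), g x = - ∑ x ∈ Ω.filter p, g x := by linarith
    rw [this, abs_neg]
  linarith

/-- the probability that the sampler hits a cell is within `η` of the true fraction -/
theorem frac {m n : ℕ} {S : Type} [Fintype S] [Nonempty S] (out : S → Fin m → Fin n → ℕ)
    (r : Fin m → ℕ) (c : Fin n → ℕ) (η : ℝ) (hmem : ∀ σ, out σ ∈ Tables r c)
    (hη : (1 / 2) * ∑ X ∈ Tables r c, |lawOf out X - 1 / ((Tables r c).card : ℝ)| ≤ η)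
    (t : ℕ) (i : Fin m) (j : Fin n) :
    |((univ.filter fun σ => t ≤ out σ i j).card : ℝ) / (Fintype.card S : ℝ) -
      (((Tables r c).filter fun X => t ≤ X i j).card : ℝ) / ((Tables r c).card : ℝ)| ≤ η := by
  classical
  have hS : (0 : ℝ) < Fintype.card S := by exact_mod_cast Fintype.card_pos
  have hT : (0 : ℝ) < (Tables r c).card := by
    obtain ⟨σ⟩ := (inferInstance : Nonempty S)
    exact_mod_cast card_pos.2 ⟨_, hmem σ⟩
  have h1 := law_sum out ((Tables r c).filter fun X => t ≤ X i j) (fun X => t ≤ X i j)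
    (fun σ => by
      rw [mem_filter]
      exact ⟨fun h => ⟨hmem σ, h⟩, fun h => h.2⟩)
  have h2 := law_sum out (Tables r c) (fun _ => True) (fun σ => by simp [hmem σ])
  have h3 : ∑ X ∈ Tables r c, (lawOf out X - 1 / ((Tables r c).card : ℝ)) = 0 := by
    rw [sum_sub_distrib, h2, sum_const, nsmul_eq_mul]
    have : ((univ.filter fun _ : S => True).card : ℝ) = Fintype.card S := by simp
    rw [this, div_self hS.ne', mul_one_div, div_self hT.ne', sub_self]
  have h4 := half (Tables r c) (fun X => lawOf out X - 1 / ((Tables r c).card : ℝ)) h3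
    (fun X => t ≤ X i j)
  rw [sum_sub_distrib, h1, sum_const, nsmul_eq_mul, mul_one_div] at h4
  exact le_trans h4 hη

theorem thm (hHOEF : StmtHOEF) (hCOND : StmtCOND) (hPIG : StmtPIG) : StmtSTG := by
  classical
  intro m n D K T M N₀ hub pick J η ξ r c hm hM hξ0 hξ1 hgood hpick hrc hN0 hN1
  have hn : 1 ≤ n := by have := J.isLt; omega
  haveI : Nonempty (Ch m n D) := ⟨(⟨0, hm⟩, J, J, 0, true)⟩
  haveI : Nonempty (Sd m n D K T) := inferInstance
  obtain ⟨hmem, hη⟩ := hgood r c hrc hN0
  set t := thr m n (∑ i, r i) with ht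
  set out : Sd m n D K T → Fin m → Fin n → ℕ := fun σ =>
    dySampler (hub r) J (NW.nw r c) (fun a b => σ (a, b)) with hout
  have hMpos : (0 : ℝ) < M := by exact_mod_cast hM
  have hTpos : (0 : ℝ) < (Tables r c).card := by
    obtain ⟨σ⟩ := (inferInstance : Nonempty (Sd m n D K T))
    exact_mod_cast card_pos.2 ⟨_, hmem σ⟩
  -- bad set of a cell
  set bad : Fin m → Fin n → Finset (Fin M → Sd m n D K T) := fun i j =>
    univ.filter fun ω : Fin M → Sd m n D K T =>
      ξ ≤ |((univ.filter fun s => t ≤ out (ω s) i j).card : ℝ) / M -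
        ((univ.filter fun u => t ≤ out u i j).card : ℝ) / (Fintype.card (Sd m n D K T) : ℝ)|
    with hbad
  have hbadcard : ∀ i j, ((bad i j).card : ℝ) ≤
      2 * Real.exp (- (M * ξ ^ 2)) * (Fintype.card (Fin M → Sd m n D K T) : ℝ) := by
    intro i j
    have h := hHOEF (Sd m n D K T) (fun σ => t ≤ out σ i j) M ξ hM hξ0 hξ1
    refine le_trans (le_of_eq ?_) h
    simp only [hbad]
  -- inclusion
  have hsub : (univ.filter fun ω : Fin M → Sd m n D K T =>
      ¬ (let F := cnt t (smp hub J r c ω)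
         let Ω' := Tables (dec r t (pick F).1) (dec c t (pick F).2)
         1 - m * n * (ξ + η) ≤
            ((Ω'.card : ℝ) * M) / ((Tables r c).card * F (pick F).1 (pick F).2) ∧
         ((Ω'.card : ℝ) * M) / ((Tables r c).card * F (pick F).1 (pick F).2) ≤
            1 + m * n * (ξ + η))) ⊆
      (univ : Finset (Fin m)).biUnion fun i => (univ : Finset (Fin n)).biUnion fun j => bad i j := by
    intro ω hω
    by_contra hcon
    apply (mem_filter.1 hω).2
    have hg : ∀ i j, |((univ.filter fun s => t ≤ out (ω s) i j).card : ℝ) / M -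
        ((univ.filter fun u => t ≤ out u i j).card : ℝ) / (Fintype.card (Sd m n D K T) : ℝ)| <
          ξ := by
      intro i j
      by_contra hh
      apply hcon
      rw [mem_biUnion]
      refine ⟨i, mem_univ i, ?_⟩
      rw [mem_biUnion]
      refine ⟨j, mem_univ j, ?_⟩
      rw [hbad]
      exact mem_filter.2 ⟨mem_univ _, not_lt.1 hh⟩
    intro F Ω'
    set q := pick F with hq
    have hX : ∀ s, smp hub J r c ω s ∈ Tables r c := fun s => hmem (ω s)
    obtain ⟨p1, p2, p3, -, -, -⟩ := hPIG m n M r c (smp hub J r c ω) q hm hn hN1 hX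
      (fun i j => hpick F i j) hM
    have hFq : F q.1 q.2 = (univ.filter fun s => t ≤ out (ω s) q.1 q.2).card := rfl
    have hc := hCOND m n t r c q.1 q.2 p2 p3
    have hfr := frac out r c η hmem hη t q.1 q.2
    rw [hc] at hfr
    have hgq := hg q.1 q.2
    rw [← hFq] at hgq
    set f : ℝ := (F q.1 q.2 : ℝ) with hf
    set R : ℝ := ((Tables (dec r t q.1) (dec c t q.2)).card : ℝ) / ((Tables r c).card : ℝ)
      with hR
    have hmn : (0 : ℝ) < (m : ℝ) * n := by
      have h1 : (0 : ℝ) < m := by exact_mod_cast hm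
      have h2 : (0 : ℝ) < n := by exact_mod_cast hn
      positivity
    have hp1 : (M : ℝ) ≤ (m : ℝ) * n * f := by
      have : (M : ℝ) ≤ ((m * n * cnt t (smp hub J r c ω) q.1 q.2 : ℕ) : ℝ) := by
        exact_mod_cast p1
      simpa [hf] using this
    have hfpos : 0 < f := by
      by_contra h
      have h' : f ≤ 0 := not_lt.1 h
      have : (m : ℝ) * n * f ≤ 0 := mul_nonpos_of_nonneg_of_nonpos hmn.le h'
      linarith
    have hd : |f / M - R| ≤ ξ + η := by
      have h3 : f / M - R = (f / M - ((univ.filter fun u => t ≤ out u q.1 q.2).card : ℝ) /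
          (Fintype.card (Sd m n D K T) : ℝ)) +
          (((univ.filter fun u => t ≤ out u q.1 q.2).card : ℝ) /
          (Fintype.card (Sd m n D K T) : ℝ) - R) := by ring
      rw [h3]
      refine le_trans (abs_add_le _ _) ?_
      exact add_le_add hgq.le hfr
    have hquot : ((Ω'.card : ℝ) * M) / ((Tables r c).card * F q.1 q.2) = R * (M / f) := by
      rw [hR, hf]
      have e1 : (Ω'.card : ℝ) = ((Tables (dec r t q.1) (dec c t q.2)).card : ℝ) := rfl
      rw [e1]
      rw [div_mul_div_comm]
    have hξη : 0 ≤ ξ + η := le_trans (abs_nonneg _) hd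
    have hdiff : |R * (M / f) - 1| ≤ m * n * (ξ + η) := by
      have h4 : R * (M / f) - 1 = (R - f / M) * (M / f) := by
        field_simp
      rw [h4, abs_mul, abs_of_pos (show (0 : ℝ) < M / f by positivity), abs_sub_comm]
      have h5 : (M : ℝ) / f ≤ m * n := by
        rw [div_le_iff₀ hfpos]
        exact hp1
      calc |f / M - R| * (M / f) ≤ (ξ + η) * (m * n) :=
            mul_le_mul hd h5 (by positivity) hξη
        _ = m * n * (ξ + η) := by ring
    rw [abs_le] at hdiff
    rw [hquot]
    constructor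
    · linarith [hdiff.1]
    · linarith [hdiff.2]
  have hcard := card_le_card hsub
  have hcard2 : ((univ : Finset (Fin m)).biUnion fun i =>
      (univ : Finset (Fin n)).biUnion fun j => bad i j).card ≤
      ∑ i : Fin m, ∑ j : Fin n, (bad i j).card :=
    le_trans card_biUnion_le (sum_le_sum fun i _ => card_biUnion_le)
  have hfin : (((univ : Finset (Fin m)).biUnion fun i =>
      (univ : Finset (Fin n)).biUnion fun j => bad i j).card : ℝ) ≤
      ∑ i : Fin m, ∑ j : Fin n, ((bad i j).card : ℝ) := by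
    exact_mod_cast hcard2
  have hfin2 : ∑ i : Fin m, ∑ j : Fin n, ((bad i j).card : ℝ) ≤
      ∑ i : Fin m, ∑ j : Fin n,
        2 * Real.exp (- (M * ξ ^ 2)) * (Fintype.card (Fin M → Sd m n D K T) : ℝ) :=
    sum_le_sum fun i _ => sum_le_sum fun j _ => hbadcard i j
  have hfin3 : ∑ i : Fin m, ∑ j : Fin n,
      2 * Real.exp (- (M * ξ ^ 2)) * (Fintype.card (Fin M → Sd m n D K T) : ℝ) =
      m * n * (2 * Real.exp (- (M * ξ ^ 2))) * (Fintype.card (Fin M → Sd m n D K T) : ℝ) := by
    simp only [sum_const, card_univ, Fintype.card_fin, nsmul_eq_mul]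
    ring
  have hcard' : ((univ.filter fun ω : Fin M → Sd m n D K T =>
      ¬ (let F := cnt t (smp hub J r c ω)
         let Ω' := Tables (dec r t (pick F).1) (dec c t (pick F).2)
         1 - m * n * (ξ + η) ≤
            ((Ω'.card : ℝ) * M) / ((Tables r c).card * F (pick F).1 (pick F).2) ∧
         ((Ω'.card : ℝ) * M) / ((Tables r c).card * F (pick F).1 (pick F).2) ≤
            1 + m * n * (ξ + η))).card : ℝ) ≤
      (((univ : Finset (Fin m)).biUnion fun i =>
      (univ : Finset (Fin n)).biUnion fun j => bad i j).card : ℝ) := by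
    exact_mod_cast hcard
  refine le_trans (le_of_eq ?_) (le_trans hcard' (le_trans hfin (le_trans hfin2 hfin3.le)))
  congr 1

end Vale.P328C.STG
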